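import Vale.Agent.P078.Low

/-! P078, module BLK: the block diagonal part is weakly close to an element of `A`. -/

namespace Vale.Agent.P078.BLKm

open scoped ComplexInnerProductSpace
open BNDm LOWm
open UPPm hiding sa_inner

variable {H : Type*} [NormedAddCommGroup H] [InnerProductSpace ℂ H] [CompleteSpace H]

theorem mul_part {A : StarSubalgebra ℂ (H →L[ℂ] H)} {r : ℕ} {p : Fin r → H →L[ℂ] H}
    (hp : IsPartition A p) (x : H →L[ℂ] H) (i : Fin r) : pinch p x * p i = p i * x * p i := by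
  unfold pinch
  rw [Finset.sum_mul, Finset.sum_eq_single i]
  · rw [mul_assoc, (hp.proj i).isIdempotentElem.eq]
  · intro j _ hj
    rw [mul_assoc, hp.orth j i hj, mul_zero]
  · intro h
    exact absurd (Finset.mem_univ i) h

/-- simple elements -/
theorem simple_mul {A : StarSubalgebra ℂ (H →L[ℂ] H)} {r : ℕ} {p : Fin r → H →L[ℂ] H}
    (hp : IsPartition A p) (c : Fin r → ℂ) (i : Fin r) : (∑ j, c j • p j) * p i = c i • p i := by
  rw [Finset.sum_mul, Finset.sum_eq_single i]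
  · rw [smul_mul_assoc, (hp.proj i).isIdempotentElem.eq]
  · intro j _ hj
    rw [smul_mul_assoc, hp.orth j i hj, smul_zero]
  · intro h
    exact absurd (Finset.mem_univ i) h

theorem mul_simple {A : StarSubalgebra ℂ (H →L[ℂ] H)} {r : ℕ} {p : Fin r → H →L[ℂ] H}
    (hp : IsPartition A p) (c : Fin r → ℂ) (i : Fin r) : p i * (∑ j, c j • p j) = c i • p i := by
  rw [Finset.mul_sum, Finset.sum_eq_single i]
  · rw [mul_smul_comm, (hp.proj i).isIdempotentElem.eq]
  · intro j _ hj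
    rw [mul_smul_comm, hp.orth i j (Ne.symm hj), smul_zero]
  · intro h
    exact absurd (Finset.mem_univ i) h

theorem simple_norm {A : StarSubalgebra ℂ (H →L[ℂ] H)} {r : ℕ} {p : Fin r → H →L[ℂ] H}
    (hp : IsPartition A p) (c : Fin r → ℂ) (M : ℝ) (hM : 0 ≤ M) (hc : ∀ i, ‖c i‖ ≤ M) :
    ‖∑ j, c j • p j‖ ≤ M := by
  refine ContinuousLinearMap.opNorm_le_bound _ hM (fun u => ?_)
  have h1 : ‖(∑ j, c j • p j) u‖ ^ 2 ≤ (M * ‖u‖) ^ 2 := by
    rw [← sum_norm_sq hp, mul_pow, ← sum_norm_sq hp u, Finset.mul_sum]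
    refine Finset.sum_le_sum (fun i _ => ?_)
    have e1 : p i ((∑ j, c j • p j) u) = c i • p i u :=
      congrArg (fun T : H →L[ℂ] H => T u) (mul_simple hp c i)
    rw [e1, norm_smul, mul_pow]
    exact mul_le_mul_of_nonneg_right (pow_le_pow_left₀ (norm_nonneg _) (hc i) 2) (sq_nonneg _)
  exact (pow_le_pow_iff_left₀ (norm_nonneg _) (by positivity) two_ne_zero).1 h1

theorem blk_proof (A : StarSubalgebra ℂ (H →L[ℂ] H)) (hQ : QQ A) : BLK A := by
  classical
  intro x hx F η hη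
  set B := 1 + ∑ v ∈ F, ‖v‖ with hB
  have hBpos : 0 < B := by
    have : 0 ≤ ∑ v ∈ F, ‖v‖ := Finset.sum_nonneg (fun v _ => norm_nonneg v)
    linarith
  have hBv : ∀ v ∈ F, ‖v‖ ≤ B := by
    intro v hv
    have : ‖v‖ ≤ ∑ v ∈ F, ‖v‖ :=
      Finset.single_le_sum (f := fun v : H => ‖v‖) (fun v _ => norm_nonneg v) hv
    linarith
  have hx0 : 0 ≤ ‖x‖ := norm_nonneg x
  set η' := min (min 1 η) (η / (2 * (‖x‖ + 1) * (2 * B + 1))) with hη'
  have hp0 : 0 < η' := lt_min (lt_min one_pos hη) (by positivity)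
  have hp1 : η' ≤ 1 := (min_le_left _ _).trans (min_le_left _ _)
  have hp2 : η' ≤ η := (min_le_left _ _).trans (min_le_right _ _)
  have hp3 : η' ≤ η / (2 * (‖x‖ + 1) * (2 * B + 1)) := min_le_right _ _
  have hp4 : 2 * (‖x‖ + 1) * (2 * B + 1) * η' ≤ η := by
    rw [le_div_iff₀ (by positivity)] at hp3
    linarith
  obtain ⟨N, q, ζ, β, hq, hβ, hfine⟩ := hQ F η' hp0
  set lam : Fin N → ℝ := fun j => (⟪q j ζ, x (q j ζ)⟫).re / ‖q j ζ‖ ^ 2 with hlam
  have hreal : ∀ u : H, ⟪u, x u⟫ = (((⟪u, x u⟫).re : ℝ) : ℂ) := by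
    intro u
    have h1 : (starRingEnd ℂ) ⟪u, x u⟫ = ⟪u, x u⟫ := by
      rw [inner_conj_symm, sa_inner hx]
    exact (Complex.conj_eq_iff_re.1 h1).symm
  have hlam1 : ∀ j, ⟪q j ζ, x (q j ζ)⟫ = (lam j : ℂ) * ((‖q j ζ‖ : ℝ) : ℂ) ^ 2 := by
    intro j
    by_cases h0 : q j ζ = 0
    · rw [h0]
      simp
    · have h1 : ‖q j ζ‖ ≠ 0 := norm_ne_zero_iff.2 h0
      rw [hreal]
      simp only [hlam]
      rw [← Complex.ofReal_pow, ← Complex.ofReal_mul]
      congr 1
      field_simp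
  have hlam2 : ∀ j, |lam j| ≤ ‖x‖ := by
    intro j
    by_cases h0 : q j ζ = 0
    · simp only [hlam, h0]
      simp
    · have h1 : 0 < ‖q j ζ‖ := norm_pos_iff.2 h0
      simp only [hlam]
      rw [abs_div, abs_of_nonneg (sq_nonneg ‖q j ζ‖), div_le_iff₀ (by positivity)]
      refine (Complex.abs_re_le_norm _).trans ((norm_inner_le_norm _ _).trans ?_)
      have := x.le_opNorm (q j ζ)
      nlinarith
  set f : H →L[ℂ] H := ∑ j, ((lam j : ℝ) : ℂ) • q j with hf
  have hfA : f ∈ A := A.sum_mem (fun j _ => A.smul_mem (hq.mem j) _)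
  have hfs : IsSelfAdjoint f := by
    rw [hf, isSelfAdjoint_iff, star_sum]
    exact Finset.sum_congr rfl (fun j _ =>
      (real_smul_sa (lam j) (hq.proj j).isSelfAdjoint).star_eq)
  have hfn : ‖f‖ ≤ ‖x‖ := by
    refine simple_norm hq _ _ hx0 (fun j => ?_)
    rw [Complex.norm_real]
    exact hlam2 j
  refine ⟨N, q, f, hq, hfA, hfs, hfn, fun v hv j => (hfine v hv j).trans hp2, ?_⟩
  set D : H →L[ℂ] H := pinch q x - f with hD
  have hDn : ‖D‖ ≤ 2 * ‖x‖ := by
    have h1 := norm_sub_le (pinch q x) f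
    have h2 := pinch_norm hq x
    linarith
  have hDq : ∀ j, D (q j ζ) = q j (x (q j ζ)) - (lam j : ℂ) • q j ζ := by
    intro j
    have h1 : (pinch q x) (q j ζ) = q j (x (q j ζ)) :=
      congrArg (fun T : H →L[ℂ] H => T ζ) (mul_part hq x j)
    have h2 : f (q j ζ) = (lam j : ℂ) • q j ζ :=
      congrArg (fun T : H →L[ℂ] H => T ζ) (simple_mul hq (fun j => ((lam j : ℝ) : ℂ)) j)
    rw [hD, sub_apply, h1, h2]
  have hzero : ∀ i j, ⟪q i ζ, D (q j ζ)⟫ = 0 := by
    intro i j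
    have h1 : ∀ u : H, ⟪q i ζ, q j u⟫ = if i = j then ⟪q j ζ, u⟫ else 0 := by
      intro u
      by_cases hij : i = j
      · rw [if_pos hij, hij, ← sa_inner (hq.proj j).isSelfAdjoint]
        have : q j (q j ζ) = (q j * q j) ζ := rfl
        rw [this, (hq.proj j).isIdempotentElem.eq]
      · rw [if_neg hij, ← sa_inner (hq.proj j).isSelfAdjoint]
        have : q j (q i ζ) = (q j * q i) ζ := rfl
        rw [this, hq.orth j i (Ne.symm hij)]
        simp
    rw [hDq, inner_sub_right, h1, inner_smul_right, h1]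
    by_cases hij : i = j
    · have h2 := h1 ζ
      rw [if_pos hij, hij] at h2
      rw [if_pos hij, if_pos hij, hlam1, ← h2, inner_self_eq_norm_sq_to_K]
      simp
    · rw [if_neg hij, if_neg hij]
      simp
  intro v hv v' hv'
  have e0 : ∑ j, ⟪q j v', x (q j v)⟫ - ⟪v', f v⟫ = ⟪v', D v⟫ := by
    have e00 : ⟪v', (pinch q x) v⟫ = ∑ j, ⟪q j v', x (q j v)⟫ := by
      unfold pinch
      rw [sum_apply, inner_sum]
      exact Finset.sum_congr rfl (fun j _ =>
        (sa_inner (hq.proj j).isSelfAdjoint v' (x (q j v))).symm)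
    rw [hD, sub_apply, inner_sub_right, e00]
  rw [e0]
  set v0 := ∑ j, β v j • q j ζ with hv0
  set v0' := ∑ j, β v' j • q j ζ with hv0'
  have e1 : ⟪v0', D v0⟫ = 0 := by
    rw [hv0, hv0', map_sum, sum_inner]
    refine Finset.sum_eq_zero (fun i _ => ?_)
    rw [inner_sum]
    refine Finset.sum_eq_zero (fun j _ => ?_)
    rw [map_smul, inner_smul_left, inner_smul_right, hzero, mul_zero, mul_zero]
  have e2 : ⟪v', D v⟫ = ⟪v' - v0', D v⟫ + ⟪v0', D (v - v0)⟫ := by
    rw [map_sub, inner_sub_left, inner_sub_right, e1]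
    ring
  have n1 : ‖v - v0‖ ≤ η' := hβ v hv
  have n2 : ‖v' - v0'‖ ≤ η' := hβ v' hv'
  have n3 : ‖v0'‖ ≤ B + 1 := by
    have h1 : v0' = v' - (v' - v0') := by abel
    have h2 := norm_sub_le v' (v' - v0')
    rw [← h1] at h2
    have := hBv v' hv'
    linarith
  have m1 : ‖⟪v' - v0', D v⟫‖ ≤ η' * (2 * ‖x‖ * B) := by
    refine (norm_inner_le_norm _ _).trans (mul_le_mul n2 ?_ (norm_nonneg _) hp0.le)
    refine (D.le_opNorm v).trans ?_
    exact mul_le_mul hDn (hBv v hv) (norm_nonneg _) (by positivity)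
  have m2 : ‖⟪v0', D (v - v0)⟫‖ ≤ (B + 1) * (2 * ‖x‖ * η') := by
    refine (norm_inner_le_norm _ _).trans (mul_le_mul n3 ?_ (norm_nonneg _) (by positivity))
    refine (D.le_opNorm _).trans ?_
    exact mul_le_mul hDn n1 (norm_nonneg _) (by positivity)
  rw [e2]
  refine (norm_add_le _ _).trans ?_
  have h9 : 0 ≤ B * η' := by positivity
  nlinarith

end Vale.Agent.P078.BLKm
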