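import Vale.Agent.P078.Mods

/-! P078, module BND: square sums, and basic facts on partitions. -/

namespace Vale.Agent.P078.BNDm

open scoped ComplexInnerProductSpace

variable {H : Type*} [NormedAddCommGroup H] [InnerProductSpace ℂ H] [CompleteSpace H]

theorem sa_inner {T : H →L[ℂ] H} (hT : IsSelfAdjoint T) (u v : H) : ⟪T u, v⟫ = ⟪u, T v⟫ := by
  have h1 := ContinuousLinearMap.adjoint_inner_left T v u
  rw [← ContinuousLinearMap.star_eq_adjoint, hT.star_eq] at h1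
  exact h1

theorem proj_inner {p : H →L[ℂ] H} (hp : IsStarProjection p) (u v : H) :
    ⟪p u, p v⟫ = ⟪u, p v⟫ := by
  rw [sa_inner hp.isSelfAdjoint]
  have : p (p v) = (p * p) v := rfl
  rw [this, hp.isIdempotentElem.eq]

theorem proj_norm_sq {p : H →L[ℂ] H} (hp : IsStarProjection p) (v : H) :
    ((‖p v‖ : ℝ) : ℂ) ^ 2 = ⟪v, p v⟫ := by
  have e1 := inner_self_eq_norm_sq_to_K (𝕜 := ℂ) (p v)
  rw [proj_inner hp] at e1
  exact e1.symm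

theorem sum_apply_eq {A : StarSubalgebra ℂ (H →L[ℂ] H)} {N : ℕ} {q : Fin N → H →L[ℂ] H}
    (hq : IsPartition A q) (v : H) : ∑ j, q j v = v := by
  have h := congrArg (fun T : H →L[ℂ] H => T v) hq.sum
  simpa [sum_apply] using h

theorem sum_norm_sq {A : StarSubalgebra ℂ (H →L[ℂ] H)} {N : ℕ} {q : Fin N → H →L[ℂ] H}
    (hq : IsPartition A q) (v : H) : ∑ j, ‖q j v‖ ^ 2 = ‖v‖ ^ 2 := by
  have h1 : ((∑ j, ‖q j v‖ ^ 2 : ℝ) : ℂ) = ((‖v‖ ^ 2 : ℝ) : ℂ) := by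
    push_cast
    have h2 : ∀ j, ((‖q j v‖ : ℝ) : ℂ) ^ 2 = ⟪v, q j v⟫ := fun j => proj_norm_sq (hq.proj j) v
    rw [Finset.sum_congr rfl (fun j _ => h2 j), ← inner_sum, sum_apply_eq hq]
    exact inner_self_eq_norm_sq_to_K (𝕜 := ℂ) v
  exact_mod_cast h1

theorem second {A : StarSubalgebra ℂ (H →L[ℂ] H)} {N : ℕ} {q : Fin N → H →L[ℂ] H}
    (hq : IsPartition A q) (v v' : H) (η : ℝ) (_hη : 0 ≤ η) (h : ∀ j, ‖q j v'‖ ≤ η) :
    ∑ j, ‖⟪v, q j v'⟫‖ ^ 2 ≤ η ^ 2 * ‖v‖ ^ 2 := by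
  rw [← sum_norm_sq hq v, Finset.mul_sum]
  refine Finset.sum_le_sum (fun j _ => ?_)
  rw [← proj_inner (hq.proj j)]
  have h1 : ‖⟪q j v, q j v'⟫‖ ≤ η * ‖q j v‖ := by
    refine (norm_inner_le_norm _ _).trans ?_
    rw [mul_comm]
    exact mul_le_mul_of_nonneg_right (h j) (norm_nonneg _)
  rw [← mul_pow]
  exact pow_le_pow_left₀ (norm_nonneg _) h1 2

theorem bnd_proof (A : StarSubalgebra ℂ (H →L[ℂ] H)) : BND A := by
  intro N q x v v' η hq hη h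
  refine ⟨?_, second hq v v' η hη h⟩
  rw [Finset.sum_comm]
  have h1 : ∀ k, ∑ j, ‖⟪q j v', x (q k v)⟫‖ ^ 2 ≤ η ^ 2 * ‖x‖ ^ 2 * ‖q k v‖ ^ 2 := by
    intro k
    have h2 := second hq (x (q k v)) v' η hη h
    have h3 : ∑ j, ‖⟪q j v', x (q k v)⟫‖ ^ 2 = ∑ j, ‖⟪x (q k v), q j v'⟫‖ ^ 2 :=
      Finset.sum_congr rfl (fun j _ => by rw [norm_inner_symm])
    rw [h3]
    refine h2.trans ?_
    have h4 : ‖x (q k v)‖ ^ 2 ≤ ‖x‖ ^ 2 * ‖q k v‖ ^ 2 := by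
      rw [← mul_pow]
      exact pow_le_pow_left₀ (norm_nonneg _) (x.le_opNorm _) 2
    calc η ^ 2 * ‖x (q k v)‖ ^ 2 ≤ η ^ 2 * (‖x‖ ^ 2 * ‖q k v‖ ^ 2) :=
          mul_le_mul_of_nonneg_left h4 (sq_nonneg _)
      _ = η ^ 2 * ‖x‖ ^ 2 * ‖q k v‖ ^ 2 := by ring
  refine (Finset.sum_le_sum (fun k _ => h1 k)).trans ?_
  rw [← Finset.mul_sum, sum_norm_sq hq]

end Vale.Agent.P078.BNDm
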