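import Vale.Agent.P078.Mom

/-! P078, module COL: a good colouring. -/

namespace Vale.Agent.P078.COLm

open Finset Mom

universe u

theorem col_proof : COL.{u} := by
  intro κ _ N r m hr
  have hrpos : (0 : ℝ) < r := by exact_mod_cast hr
  have : NeZero r := ⟨by omega⟩
  set α : Fin r → Fin r → ℝ := fun b b' => (if b = b' then 1 else 0) - 1 / (r : ℝ) with hα
  have hs : ∀ b b', α b b' = α b' b := by
    intro b b'
    simp only [hα, eq_comm]
  have h0 : ∀ b', ∑ b, α b b' = 0 := by
    intro b'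
    simp only [hα, Finset.sum_sub_distrib, Finset.sum_ite_eq', Finset.mem_univ, if_true,
      Finset.sum_const, Finset.card_univ, Fintype.card_fin, nsmul_eq_mul]
    field_simp
    ring
  have h1 : ∀ b b', |α b b'| ≤ 1 := by
    intro b b'
    have h2 : 0 ≤ 1 / (r : ℝ) := by positivity
    have h3 : 1 / (r : ℝ) ≤ 1 := by
      rw [div_le_one hrpos]
      exact_mod_cast hr
    simp only [hα]
    rw [abs_le]
    split_ifs <;> constructor <;> linarith
  set f : (Fin N → Fin r) → ℝ := fun c =>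
    ∑ t, ‖∑ p : Fin N × Fin N, (al α p c : ℂ) * m t p.1 p.2‖ ^ 2 with hf
  have h2 : ∑ c, f c ≤ ∑ _c : Fin N → Fin r, 2 * ∑ t, ∑ j, ∑ k, ‖m t j k‖ ^ 2 := by
    rw [hf, Finset.sum_comm, Finset.sum_const, Finset.card_univ, nsmul_eq_mul, Finset.mul_sum,
      Finset.mul_sum]
    refine Finset.sum_le_sum (fun t _ => ?_)
    refine (quad_moment α hs h0 h1 (fun p => m t p.1 p.2)).trans (le_of_eq ?_)
    rw [Fintype.sum_prod_type]
  obtain ⟨c, -, hc⟩ := Finset.exists_le_of_sum_le
    (Finset.univ_nonempty (α := Fin N → Fin r)) h2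
  refine ⟨c, le_trans (le_of_eq ?_) hc⟩
  rw [hf]
  refine Finset.sum_congr rfl (fun t _ => ?_)
  rw [Fintype.sum_prod_type]
  congr 2
  refine Finset.sum_congr rfl (fun j _ => Finset.sum_congr rfl (fun k _ => ?_))
  congr 1
  unfold al
  simp only [hα]
  split_ifs <;> simp

end Vale.Agent.P078.COLm
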