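import Vale.Agent.P078.Mods

/-!
P078, module SPEC: every element of `A` is a norm limit of simple elements.
-/

namespace Vale.Agent.P078.Spec

open scoped ComplexInnerProductSpace

variable {H : Type*} [NormedAddCommGroup H] [InnerProductSpace ℂ H] [CompleteSpace H]

/-- simple elements -/
def Smp (A : StarSubalgebra ℂ (H →L[ℂ] H)) (b : H →L[ℂ] H) : Prop :=
  ∃ (N : ℕ) (q : Fin N → H →L[ℂ] H) (β : Fin N → ℂ), IsPartition A q ∧ b = ∑ j, β j • q j

theorem comm_of {A : StarSubalgebra ℂ (H →L[ℂ] H)} (hA : Ms A) {a b : H →L[ℂ] H} (ha : a ∈ A)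
    (hb : b ∈ A) : a * b = b * a := (hA b).mp hb a ha

theorem smp_smul {A : StarSubalgebra ℂ (H →L[ℂ] H)} {b : H →L[ℂ] H} (c : ℂ) (h : Smp A b) :
    Smp A (c • b) := by
  obtain ⟨N, q, β, hq, rfl⟩ := h
  refine ⟨N, q, fun j => c * β j, hq, ?_⟩
  rw [Finset.smul_sum]
  exact Finset.sum_congr rfl fun j _ => by rw [smul_smul]

theorem prod_partition {A : StarSubalgebra ℂ (H →L[ℂ] H)} (hA : Ms A) {n m : ℕ}
    {q : Fin n → H →L[ℂ] H} {q' : Fin m → H →L[ℂ] H} (hq : IsPartition A q)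
    (hq' : IsPartition A q') :
    IsPartition A (fun i : Fin (n * m) => q (finProdFinEquiv.symm i).1 *
      q' (finProdFinEquiv.symm i).2) where
  mem := fun i => mul_mem (hq.mem _) (hq'.mem _)
  proj := fun i => by
    have hc := comm_of hA (hq.mem (finProdFinEquiv.symm i).1) (hq'.mem (finProdFinEquiv.symm i).2)
    have h1 := hq.proj (finProdFinEquiv.symm i).1
    have h2 := hq'.proj (finProdFinEquiv.symm i).2
    generalize q (finProdFinEquiv.symm i).1 = a at *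
    generalize q' (finProdFinEquiv.symm i).2 = b at *
    refine ⟨?_, ?_⟩
    · show a * b * (a * b) = a * b
      calc a * b * (a * b) = a * (b * a) * b := by simp only [mul_assoc]
        _ = (a * a) * (b * b) := by rw [← hc]; simp only [mul_assoc]
        _ = a * b := by rw [h1.isIdempotentElem.eq, h2.isIdempotentElem.eq]
    · show star (a * b) = a * b
      rw [star_mul, h1.isSelfAdjoint.star_eq, h2.isSelfAdjoint.star_eq, hc]
  orth := fun i j hij => by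
    have hne : (finProdFinEquiv.symm i) ≠ (finProdFinEquiv.symm j) :=
      fun e => hij (finProdFinEquiv.symm.injective e)
    generalize finProdFinEquiv.symm i = u at *
    generalize finProdFinEquiv.symm j = v at *
    have hc := comm_of hA (hq.mem v.1) (hq'.mem u.2)
    have e : q u.1 * q' u.2 * (q v.1 * q' v.2) = (q u.1 * q v.1) * (q' u.2 * q' v.2) := by
      calc q u.1 * q' u.2 * (q v.1 * q' v.2) = q u.1 * (q' u.2 * q v.1) * q' v.2 := by
            simp only [mul_assoc]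
        _ = _ := by rw [← hc]; simp only [mul_assoc]
    show q u.1 * q' u.2 * (q v.1 * q' v.2) = 0
    rw [e]
    by_cases h1 : u.1 = v.1
    · have h2 : u.2 ≠ v.2 := fun h2 => hne (Prod.ext h1 h2)
      rw [hq'.orth _ _ h2, mul_zero]
    · rw [hq.orth _ _ h1, zero_mul]
  sum := by
    rw [Equiv.sum_comp finProdFinEquiv.symm (fun u : Fin n × Fin m => q u.1 * q' u.2),
      Fintype.sum_prod_type]
    simp_rw [← Finset.mul_sum]
    rw [hq'.sum]
    simp only [mul_one]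
    exact hq.sum

theorem smp_add {A : StarSubalgebra ℂ (H →L[ℂ] H)} (hA : Ms A) {b b' : H →L[ℂ] H} (h : Smp A b)
    (h' : Smp A b') : Smp A (b + b') := by
  obtain ⟨n, q, β, hq, rfl⟩ := h
  obtain ⟨m, q', γ, hq', rfl⟩ := h'
  refine ⟨n * m, _, fun i => β (finProdFinEquiv.symm i).1 + γ (finProdFinEquiv.symm i).2,
    prod_partition hA hq hq', ?_⟩
  rw [Equiv.sum_comp finProdFinEquiv.symm
    (fun u : Fin n × Fin m => (β u.1 + γ u.2) • (q u.1 * q' u.2)), Fintype.sum_prod_type]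
  simp_rw [add_smul, Finset.sum_add_distrib]
  congr 1
  · refine Finset.sum_congr rfl fun j _ => ?_
    rw [← Finset.smul_sum, ← Finset.mul_sum, hq'.sum, mul_one]
  · rw [Finset.sum_comm]
    refine Finset.sum_congr rfl fun j _ => ?_
    rw [← Finset.smul_sum, ← Finset.sum_mul, hq.sum, one_mul]

theorem smp_refl {A : StarSubalgebra ℂ (H →L[ℂ] H)} {f : H →L[ℂ] H} (hf : f ∈ A)
    (hp : IsStarProjection f) : Smp A (1 - (2 : ℂ) • f) := by
  have hp' : IsStarProjection (1 - f) := hp.one_sub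
  have h0 : (1 - f) * f = 0 := by
    rw [sub_mul, one_mul, hp.isIdempotentElem.eq, sub_self]
  have h0' : f * (1 - f) = 0 := by
    rw [mul_sub, mul_one, hp.isIdempotentElem.eq, sub_self]
  refine ⟨2, ![1 - f, f], ![1, -1], ⟨?_, ?_, ?_, ?_⟩, ?_⟩
  · intro i
    fin_cases i
    · exact sub_mem (one_mem A) hf
    · exact hf
  · intro i
    fin_cases i
    · exact hp'
    · exact hp
  · intro i j hij
    fin_cases i <;> fin_cases j
    · exact absurd rfl hij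
    · exact h0
    · exact h0'
    · exact absurd rfl hij
  · simp
  · simp only [Fin.sum_univ_two, Matrix.cons_val_zero, Matrix.cons_val_one, one_smul, neg_smul]
    rw [two_smul]
    abel

theorem norm_le_of {T : H →L[ℂ] H} (hT : IsSelfAdjoint T) {c : ℝ} (hc : 0 ≤ c)
    (h : ∀ v, |(⟪v, T v⟫).re| ≤ c * ‖v‖ ^ 2) : ‖T‖ ≤ c := by
  rw [ContinuousLinearMap.norm_eq_iSup_rayleighQuotient T hT.isSymmetric]
  refine ciSup_le fun v => ?_
  unfold ContinuousLinearMap.rayleighQuotient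
  rw [ContinuousLinearMap.reApplyInnerSelf_apply, abs_div, abs_of_nonneg (sq_nonneg ‖v‖)]
  rcases eq_or_lt_of_le (sq_nonneg ‖v‖) with h0 | h0
  · rw [← h0, div_zero]
    exact hc
  · rw [div_le_iff₀ h0]
    have h1 := h v
    have e : RCLike.re ⟪T v, v⟫ = (⟪v, T v⟫).re := by
      rw [inner_re_symm]
      rfl
    rw [e]
    exact h1

theorem sa_inner {T : H →L[ℂ] H} (hT : IsSelfAdjoint T) (u v : H) : ⟪u, T v⟫ = ⟪T u, v⟫ :=
  (hT.isSymmetric u v).symm

theorem exp_aux {h : H →L[ℂ] H} {v1 v2 : H} (c : ℝ) (h12 : ⟪v1, h v2⟫ = 0)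
    (h21 : ⟪v2, h v1⟫ = 0) (o12 : ⟪v1, v2⟫ = 0) (o21 : ⟪v2, v1⟫ = 0) :
    (⟪v1 + v2, (h v1 + h v2) - (c : ℂ) • (v2 - v1)⟫).re =
      (⟪v1, h v1⟫).re + (⟪v2, h v2⟫).re - c * (‖v2‖ ^ 2 - ‖v1‖ ^ 2) := by
  have e1 : ⟪v1, v1⟫ = ((‖v1‖ ^ 2 : ℝ) : ℂ) := by
    rw [inner_self_eq_norm_sq_to_K]; norm_cast
  have e2 : ⟪v2, v2⟫ = ((‖v2‖ ^ 2 : ℝ) : ℂ) := by
    rw [inner_self_eq_norm_sq_to_K]; norm_cast
  have e : ⟪v1 + v2, (h v1 + h v2) - (c : ℂ) • (v2 - v1)⟫ =
      ⟪v1, h v1⟫ + ⟪v2, h v2⟫ - ((c * (‖v2‖ ^ 2 - ‖v1‖ ^ 2) : ℝ) : ℂ) := by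
    rw [inner_sub_right, inner_smul_right]
    simp only [inner_add_left, inner_add_right, inner_sub_right, h12, h21, o12, o21, e1, e2]
    push_cast
    ring
  rw [e, Complex.sub_re, Complex.add_re, Complex.ofReal_re]

theorem half_step {A : StarSubalgebra ℂ (H →L[ℂ] H)} (hA : Ms A) (hP : PROJ A)
    {h : H →L[ℂ] H} (hh : h ∈ A) (hs : IsSelfAdjoint h) {M : ℝ} (hM : ‖h‖ ≤ M) :
    ∃ f ∈ A, IsStarProjection f ∧ ‖h - ((M / 2 : ℝ) : ℂ) • (1 - (2 : ℂ) • f)‖ ≤ M / 2 := by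
  have hM0 : 0 ≤ M := (norm_nonneg _).trans hM
  have hpA : h⁺ ∈ A := by
    rw [hA]
    intro a ha
    have h1 : Commute h a := comm_of hA hh ha
    exact (h1.cfcₙ_real (fun x : ℝ => x⁺)).eq.symm
  have hpn : h⁺ * h⁻ = 0 := CFC.posPart_mul_negPart h
  have hsub : h⁺ - h⁻ = h := CFC.posPart_sub_negPart h hs
  have hp0 : (0 : H →L[ℂ] H) ≤ h⁺ := CFC.posPart_nonneg h
  have hn0 : (0 : H →L[ℂ] H) ≤ h⁻ := CFC.negPart_nonneg h
  have hn_sa : IsSelfAdjoint h⁻ := IsSelfAdjoint.of_nonneg hn0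
  have hpos : ∀ v, 0 ≤ (⟪v, h⁺ v⟫).re := by
    intro v
    have := (ContinuousLinearMap.nonneg_iff_isPositive _).mp hp0
    exact (Complex.le_def.mp (this.inner_nonneg_right v)).1
  have hneg : ∀ v, 0 ≤ (⟪v, h⁻ v⟫).re := by
    intro v
    have := (ContinuousLinearMap.nonneg_iff_isPositive _).mp hn0
    exact (Complex.le_def.mp (this.inner_nonneg_right v)).1
  set K : Submodule ℂ H := LinearMap.ker (h⁺ : H →L[ℂ] H).toLinearMap with hK
  have hKmem : ∀ v, v ∈ K ↔ h⁺ v = 0 := fun v => by rw [hK]; rfl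
  have : CompleteSpace K := by
    have : IsClosed (K : Set H) := by
      have e : (K : Set H) = (h⁺ : H →L[ℂ] H) ⁻¹' {0} := by
        ext v
        simp [hKmem]
      rw [e]
      exact isClosed_singleton.preimage (h⁺ : H →L[ℂ] H).continuous
    exact this.completeSpace_coe
  set f := K.starProjection with hf
  have hfp : IsStarProjection f := isStarProjection_starProjection
  have hfA : f ∈ A := by
    refine hP K ?_
    intro a ha v hv
    rw [hKmem] at hv ⊢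
    have := comm_of hA hpA ha
    have h2 : (h⁺ * a) v = (a * h⁺) v := by rw [this]
    have h3 : h⁺ (a v) = a (h⁺ v) := h2
    rw [h3, hv, map_zero]
  refine ⟨f, hfA, hfp, ?_⟩
  have hfs : IsSelfAdjoint f := hfp.isSelfAdjoint
  have hcomm : h * f = f * h := comm_of hA hh hfA
  have hcomm' : ∀ v, h (f v) = f (h v) := fun v => by
    have : (h * f) v = (f * h) v := by rw [hcomm]
    exact this
  have hff : ∀ v, f (f v) = f v := fun v => by
    have : (f * f) v = f v := by rw [hfp.isIdempotentElem.eq]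
    exact this
  have hT : IsSelfAdjoint (h - ((M / 2 : ℝ) : ℂ) • (1 - (2 : ℂ) • f)) := by
    have hr : ∀ t : ℝ, IsSelfAdjoint (t : ℂ) := fun t => Complex.conj_ofReal t
    have h2 : IsSelfAdjoint (2 : ℂ) := by exact_mod_cast hr 2
    refine hs.sub (IsSelfAdjoint.smul (hr _) ?_)
    exact (IsSelfAdjoint.one _).sub (IsSelfAdjoint.smul h2 hfs)
  have hnle : ∀ v, |(⟪v, h v⟫).re| ≤ M * ‖v‖ ^ 2 := by
    intro v
    calc |(⟪v, h v⟫).re| ≤ ‖⟪v, h v⟫‖ := Complex.abs_re_le_norm _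
      _ ≤ ‖v‖ * ‖h v‖ := norm_inner_le_norm _ _
      _ ≤ ‖v‖ * (M * ‖v‖) := by
          gcongr
          exact (h.le_opNorm v).trans (by gcongr)
      _ = M * ‖v‖ ^ 2 := by ring
  refine norm_le_of hT (by linarith) ?_
  intro v
  set v1 := f v with hv1
  set v2 := v - f v with hv2
  have hv : v = v1 + v2 := by rw [hv1, hv2]; abel
  have hfv1 : f v1 = v1 := hff v
  have hfv2 : f v2 = 0 := by rw [hv2, map_sub, hff, sub_self]
  have hv1K : v1 ∈ K := K.starProjection_apply_mem v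
  have h12 : ⟪v1, h v2⟫ = 0 := by
    rw [← hfv1, ← sa_inner hfs, ← hcomm', hfv2, map_zero, inner_zero_right]
  have h21 : ⟪v2, h v1⟫ = 0 := by
    rw [← hfv1, hcomm', sa_inner hfs, hfv2, inner_zero_left]
  have o12 : ⟪v1, v2⟫ = 0 := by
    rw [← hfv1, ← sa_inner hfs, hfv2, inner_zero_right]
  have o21 : ⟪v2, v1⟫ = 0 := by
    rw [← hfv1, sa_inner hfs, hfv2, inner_zero_left]
  have hnorm : ‖v‖ ^ 2 = ‖v1‖ ^ 2 + ‖v2‖ ^ 2 := by
    have := norm_add_sq_eq_norm_sq_add_norm_sq_of_inner_eq_zero v1 v2 o12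
    rw [hv]
    nlinarith [this]
  -- on K
  have hk1 : (⟪v1, h v1⟫).re ≤ 0 := by
    have e : h v1 = - h⁻ v1 := by
      have : (h⁺ - h⁻) v1 = h v1 := by rw [hsub]
      rw [← this, sub_apply, (hKmem v1).mp hv1K, zero_sub]
    rw [e, inner_neg_right, Complex.neg_re]
    linarith [hneg v1]
  -- on the complement
  have hk2 : 0 ≤ (⟪v2, h v2⟫).re := by
    have hr : h⁻ (h⁻ v2) ∈ K := by
      rw [hKmem]
      have : (h⁺ * h⁻) (h⁻ v2) = 0 := by rw [hpn]; rfl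
      exact this
    have hz : ⟪h⁻ v2, h⁻ v2⟫ = 0 := by
      rw [← sa_inner hn_sa]
      have : f (h⁻ (h⁻ v2)) = h⁻ (h⁻ v2) := Submodule.starProjection_eq_self_iff.mpr hr
      rw [← this, sa_inner hfs, hfv2, inner_zero_left]
    have hz' : h⁻ v2 = 0 := inner_self_eq_zero.mp hz
    have e : h v2 = h⁺ v2 := by
      have : (h⁺ - h⁻) v2 = h v2 := by rw [hsub]
      rw [← this, sub_apply, hz', sub_zero]
    rw [e]
    exact hpos v2
  have hb1 := abs_le.mp (hnle v1)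
  have hb2 := abs_le.mp (hnle v2)
  have hexp : (⟪v, (h - ((M / 2 : ℝ) : ℂ) • (1 - (2 : ℂ) • f)) v⟫).re =
      (⟪v1, h v1⟫).re + (⟪v2, h v2⟫).re - M / 2 * (‖v2‖ ^ 2 - ‖v1‖ ^ 2) := by
    have e1 : (h - ((M / 2 : ℝ) : ℂ) • (1 - (2 : ℂ) • f)) v =
        (h v1 + h v2) - ((M / 2 : ℝ) : ℂ) • (v2 - v1) := by
      have e2 : (h - ((M / 2 : ℝ) : ℂ) • (1 - (2 : ℂ) • f)) v =
        h v - ((M / 2 : ℝ) : ℂ) • (v - (2 : ℂ) • f v) := rfl
      rw [e2, ← map_add, ← hv, ← hv1]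
      congr 2
      rw [two_smul, hv2, hv1]
      abel
    rw [e1, ← exp_aux (M / 2) h12 h21 o12 o21, ← hv]
  rw [hexp, hnorm, abs_le]
  constructor <;> nlinarith [hb1.1, hb2.2]

theorem smp_zero (A : StarSubalgebra ℂ (H →L[ℂ] H)) : Smp A 0 := by
  refine ⟨1, fun _ => 1, fun _ => 0, ⟨fun _ => one_mem A, fun _ => .one _, ?_, by simp⟩, by simp⟩
  intro i j hij
  exact absurd (Subsingleton.elim i j) hij

theorem iter {A : StarSubalgebra ℂ (H →L[ℂ] H)} (hA : Ms A) (hP : PROJ A)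
    {h : H →L[ℂ] H} (hh : h ∈ A) (hs : IsSelfAdjoint h) (k : ℕ) :
    ∃ s, Smp A s ∧ s ∈ A ∧ IsSelfAdjoint s ∧ ‖h - s‖ ≤ ‖h‖ / 2 ^ k := by
  induction k with
  | zero => exact ⟨0, smp_zero A, zero_mem A, IsSelfAdjoint.zero _, by simp⟩
  | succ k ih =>
    obtain ⟨s, hs1, hs2, hs3, hs4⟩ := ih
    obtain ⟨f, hf, hfp, hfn⟩ := half_step hA hP (sub_mem hh hs2) (hs.sub hs3) hs4
    have hr : ∀ t : ℝ, IsSelfAdjoint (t : ℂ) := fun t => Complex.conj_ofReal t
    have h2 : IsSelfAdjoint (2 : ℂ) := by exact_mod_cast hr 2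
    refine ⟨s + ((‖h‖ / 2 ^ k / 2 : ℝ) : ℂ) • (1 - (2 : ℂ) • f), ?_, ?_, ?_, ?_⟩
    · exact smp_add hA hs1 (smp_smul _ (smp_refl hf hfp))
    · exact add_mem hs2 (A.smul_mem (sub_mem (one_mem A) (A.smul_mem hf _)) _)
    · exact hs3.add (IsSelfAdjoint.smul (hr _)
        ((IsSelfAdjoint.one _).sub (IsSelfAdjoint.smul h2 hfp.isSelfAdjoint)))
    · rw [← sub_sub, pow_succ, ← div_div]
      exact hfn

theorem approx {A : StarSubalgebra ℂ (H →L[ℂ] H)} (hA : Ms A) (hP : PROJ A)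
    {h : H →L[ℂ] H} (hh : h ∈ A) (hs : IsSelfAdjoint h) {η : ℝ} (hη : 0 < η) :
    ∃ s, Smp A s ∧ ‖h - s‖ ≤ η := by
  obtain ⟨k, hk⟩ := exists_pow_lt_of_lt_one (show 0 < η / (‖h‖ + 1) by positivity)
    (show (1 / 2 : ℝ) < 1 by norm_num)
  obtain ⟨s, h1, -, -, h2⟩ := iter hA hP hh hs k
  refine ⟨s, h1, h2.trans ?_⟩
  have h3 : (0 : ℝ) < ‖h‖ + 1 := by positivity
  have h4 : ‖h‖ / 2 ^ k = ‖h‖ * (1 / 2) ^ k := by
    rw [div_pow, one_pow]; ring
  rw [h4]
  have h5 : (1 / 2 : ℝ) ^ k * (‖h‖ + 1) < η := by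
    rwa [lt_div_iff₀ h3] at hk
  have h6 : (0 : ℝ) < (1 / 2 : ℝ) ^ k := by positivity
  nlinarith

theorem spec_proof (A : StarSubalgebra ℂ (H →L[ℂ] H)) (hA : Ms A) (hP : PROJ A) : SPEC A := by
  intro b hb η hη
  have hsb : star b ∈ A := star_mem hb
  have hr : ∀ t : ℝ, IsSelfAdjoint (t : ℂ) := fun t => Complex.conj_ofReal t
  set h1 : H →L[ℂ] H := (((1 / 2 : ℝ)) : ℂ) • (b + star b) with hh1
  set h2 : H →L[ℂ] H := (((-1 / 2 : ℝ)) : ℂ) • (Complex.I • (b - star b)) with hh2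
  have m1 : h1 ∈ A := A.smul_mem (add_mem hb hsb) _
  have m2 : h2 ∈ A := A.smul_mem (A.smul_mem (sub_mem hb hsb) _) _
  have s1 : IsSelfAdjoint h1 := by
    refine IsSelfAdjoint.smul (hr _) ?_
    show star _ = _
    rw [star_add, star_star, add_comm]
  have s2 : IsSelfAdjoint h2 := by
    refine IsSelfAdjoint.smul (hr _) ?_
    show star _ = _
    rw [star_smul, star_sub, star_star]
    have : star Complex.I = -Complex.I := Complex.conj_I
    rw [this, neg_smul, ← smul_neg, neg_sub]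
  have hb' : b = h1 + Complex.I • h2 := by
    rw [hh1, hh2, smul_comm Complex.I, smul_smul Complex.I Complex.I, Complex.I_mul_I,
      smul_smul, ← sub_eq_zero]
    have e1 : (((-1 / 2 : ℝ)) : ℂ) * -1 = (((1 / 2 : ℝ)) : ℂ) := by push_cast; ring
    rw [e1, ← smul_add]
    have e2 : b + star b + (b - star b) = (2 : ℂ) • b := by
      rw [two_smul]; abel
    rw [e2, smul_smul]
    have e3 : (((1 / 2 : ℝ)) : ℂ) * 2 = 1 := by push_cast; norm_num
    rw [e3, one_smul, sub_self]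
  obtain ⟨t1, ht1, n1⟩ := approx hA hP m1 s1 (half_pos hη)
  obtain ⟨t2, ht2, n2⟩ := approx hA hP m2 s2 (half_pos hη)
  obtain ⟨N, q, β, hq, he⟩ := smp_add hA ht1 (smp_smul Complex.I ht2)
  refine ⟨N, q, β, hq, ?_⟩
  rw [← he]
  have e4 : b - (t1 + Complex.I • t2) = (h1 - t1) + Complex.I • (h2 - t2) := by
    conv_lhs => rw [hb']
    rw [smul_sub]
    abel
  rw [e4]
  calc ‖(h1 - t1) + Complex.I • (h2 - t2)‖ ≤ ‖h1 - t1‖ + ‖Complex.I • (h2 - t2)‖ := norm_add_le _ _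
    _ ≤ η / 2 + η / 2 := by
        rw [norm_smul, Complex.norm_I, one_mul]
        exact add_le_add n1 n2
    _ = η := by ring

end Vale.Agent.P078.Spec
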