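import Vale.Agent.P078.Mods
import Vale.Agent.P078.Spec

/-!
P078, module CYC: a common cyclic vector for finitely many vectors.
-/

namespace Vale.Agent.P078.Cyc

open scoped ComplexInnerProductSpace

variable {H : Type*} [NormedAddCommGroup H] [InnerProductSpace ℂ H] [CompleteSpace H]

/-- the orbit of `ζ` under `A` -/
def orb (A : StarSubalgebra ℂ (H →L[ℂ] H)) (ζ : H) : Submodule ℂ H where
  carrier := {v | ∃ b ∈ A, b ζ = v}
  add_mem' := by
    rintro _ _ ⟨b, hb, rfl⟩ ⟨c, hc, rfl⟩
    exact ⟨b + c, add_mem hb hc, rfl⟩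
  zero_mem' := ⟨0, zero_mem A, rfl⟩
  smul_mem' := by
    rintro t _ ⟨b, hb, rfl⟩
    exact ⟨t • b, A.smul_mem hb t, rfl⟩

theorem cyc_proof (A : StarSubalgebra ℂ (H →L[ℂ] H)) (hP : PROJ A) : CYC A := by
  classical
  intro F
  induction F using Finset.induction_on with
  | empty => exact ⟨0, fun v hv => absurd hv (Finset.notMem_empty v)⟩
  | insert w F _ ih =>
    obtain ⟨ζ, hζ⟩ := ih
    set K : Submodule ℂ H := (orb A ζ).topologicalClosure with hK
    have hcl : IsClosed (K : Set H) := Submodule.isClosed_topologicalClosure _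
    have : CompleteSpace K := hcl.completeSpace_coe
    set e := K.starProjection with he
    have heA : e ∈ A := by
      refine hP K ?_
      intro a ha v hv
      have h1 : v ∈ closure ((orb A ζ : Submodule ℂ H) : Set H) := hv
      have h2 : a v ∈ closure ((orb A ζ : Submodule ℂ H) : Set H) := by
        refine map_mem_closure a.continuous h1 ?_
        rintro _ ⟨b, hb, rfl⟩
        exact ⟨a * b, mul_mem ha hb, rfl⟩
      exact h2
    have hζK : ζ ∈ K := subset_closure (⟨1, one_mem A, rfl⟩ : ζ ∈ orb A ζ)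
    have h1 : e ζ = ζ := Submodule.starProjection_eq_self_iff.mpr hζK
    have h2 : ∀ v, e (e v) = e v := fun v =>
      Submodule.starProjection_eq_self_iff.mpr (K.starProjection_apply_mem v)
    have h3 : e (ζ + (w - e w)) = ζ := by
      rw [map_add, map_sub, h1, h2, sub_self, add_zero]
    refine ⟨ζ + (w - e w), ?_⟩
    intro v hv η hη
    rcases Finset.mem_insert.mp hv with rfl | hv
    · have h4 : e v ∈ closure ((orb A ζ : Submodule ℂ H) : Set H) := K.starProjection_apply_mem v
      obtain ⟨_, ⟨b, hb, rfl⟩, hbd⟩ := Metric.mem_closure_iff.mp h4 η hη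
      refine ⟨b * e + (1 - e), add_mem (mul_mem hb heA) (sub_mem (one_mem A) heA), ?_⟩
      have h5 : (b * e + (1 - e)) (ζ + (v - e v)) = b ζ + (v - e v) := by
        have : (b * e + (1 - e)) (ζ + (v - e v)) =
          b (e (ζ + (v - e v))) + ((ζ + (v - e v)) - e (ζ + (v - e v))) := rfl
        rw [this, h3]
        abel
      rw [h5]
      have h6 : v - (b ζ + (v - e v)) = e v - b ζ := by abel
      rw [h6, ← dist_eq_norm]
      exact hbd.le
    · obtain ⟨b, hb, hbn⟩ := hζ v hv η hη
      refine ⟨b * e, mul_mem hb heA, ?_⟩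
      have h5 : (b * e) (ζ + (w - e w)) = b (e (ζ + (w - e w))) := rfl
      rw [h5, h3]
      exact hbn

end Vale.Agent.P078.Cyc
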