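import Mathlib

/-!
P078, so-paving: definitions used in the final statement.
-/

namespace Vale.Agent.P078

open scoped ComplexInnerProductSpace

variable {H : Type*} [NormedAddCommGroup H] [InnerProductSpace ℂ H] [CompleteSpace H]

/-- `A` is a maximal abelian self-adjoint subalgebra of the von Neumann algebra `M` -/
def IsMasa (M : VonNeumannAlgebra H) (A : StarSubalgebra ℂ (H →L[ℂ] H)) : Prop :=
  A ≤ M.toStarSubalgebra ∧ (∀ a ∈ A, ∀ b ∈ A, a * b = b * a) ∧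
    ∀ B : StarSubalgebra ℂ (H →L[ℂ] H), A ≤ B → B ≤ M.toStarSubalgebra →
      (∀ a ∈ B, ∀ b ∈ B, a * b = b * a) → B = A

/-- `p` is a partition in `A` with `r` pieces -/
structure IsPartition (A : StarSubalgebra ℂ (H →L[ℂ] H)) {r : ℕ} (p : Fin r → H →L[ℂ] H) :
    Prop where
  mem : ∀ i, p i ∈ A
  proj : ∀ i, IsStarProjection (p i)
  orth : ∀ i j, i ≠ j → p i * p j = 0
  sum : ∑ i, p i = 1

/-- the pinching of `x` by `p` -/
noncomputable def pinch {r : ℕ} (p : Fin r → H →L[ℂ] H) (x : H →L[ℂ] H) : H →L[ℂ] H :=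
  ∑ i, p i * x * p i

/-- `x` is `(ε, r)` so-pavable over `A ⊆ M` -/
def SoPavable (M : VonNeumannAlgebra H) (A : StarSubalgebra ℂ (H →L[ℂ] H)) (x : H →L[ℂ] H)
    (ε : ℝ) (r : ℕ) : Prop :=
  ∀ (F : Finset H) (δ : ℝ), 0 < δ → ∃ (p : Fin r → H →L[ℂ] H) (a q : H →L[ℂ] H),
    IsPartition A p ∧ a ∈ A ∧ IsSelfAdjoint a ∧ ‖a‖ ≤ ‖x‖ ∧ q ∈ M ∧ IsStarProjection q ∧
    (∀ ξ ∈ F, ‖(1 - q) ξ‖ < δ) ∧ ‖q * (pinch p x - a) * q‖ ≤ ε * ‖x‖

/-- the so-paving number of `A ⊆ M`: the least `r ≥ 1` such that every self-adjoint `x ∈ M` is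
`(ε, r)` so-pavable (`⊤` if there is none) -/
noncomputable def soNumber (M : VonNeumannAlgebra H) (A : StarSubalgebra ℂ (H →L[ℂ] H))
    (ε : ℝ) : ℕ∞ :=
  sInf {n : ℕ∞ | ∃ r : ℕ, 1 ≤ r ∧ n = (r : ℕ∞) ∧
    ∀ x ∈ M, IsSelfAdjoint x → SoPavable M A x ε r}

/-- the von Neumann algebra of all bounded operators -/
noncomputable def allOps (H : Type*) [NormedAddCommGroup H] [InnerProductSpace ℂ H]
    [CompleteSpace H] : VonNeumannAlgebra H where
  toStarSubalgebra := ⊤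
  centralizer_centralizer' := by
    refine Set.eq_univ_of_forall (fun x => ?_)
    intro c hc
    exact (hc x (Set.mem_univ x)).symm

/-- `A` has no minimal projections -/
def NoMinimal (A : StarSubalgebra ℂ (H →L[ℂ] H)) : Prop :=
  ∀ p ∈ A, IsStarProjection p → p ≠ 0 →
    ∃ p' ∈ A, IsStarProjection p' ∧ p' ≠ 0 ∧ p' ≠ p ∧ p * p' = p'

end Vale.Agent.P078
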