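import Vale.Agent.P078.Mods
import Vale.Agent.P078.Spec

/-!
P078, module FINE: partitions which are fine for one vector.
-/

namespace Vale.Agent.P078.Fine

open scoped ComplexInnerProductSpace

variable {H : Type*} [NormedAddCommGroup H] [InnerProductSpace ℂ H] [CompleteSpace H]

/-- `p` is a finite sum of orthogonal projections of `A` which are small at `v` -/
def Fn (A : StarSubalgebra ℂ (H →L[ℂ] H)) (v : H) (η : ℝ) (p : H →L[ℂ] H) : Prop :=
  ∃ (ι : Type) (_ : Fintype ι) (q : ι → H →L[ℂ] H), (∀ i, q i ∈ A) ∧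
    (∀ i, IsStarProjection (q i)) ∧ (∀ i j, i ≠ j → q i * q j = 0) ∧ ∑ i, q i = p ∧
    ∀ i, ‖q i v‖ ≤ η

theorem fn_zero (A : StarSubalgebra ℂ (H →L[ℂ] H)) (v : H) (η : ℝ) : Fn A v η 0 :=
  ⟨Empty, inferInstance, fun i => i.elim, fun i => i.elim, fun i => i.elim, fun i => i.elim,
    by simp, fun i => i.elim⟩

theorem fn_single {A : StarSubalgebra ℂ (H →L[ℂ] H)} {v : H} {η : ℝ} {p : H →L[ℂ] H}
    (hp : p ∈ A) (hpp : IsStarProjection p) (h : ‖p v‖ ≤ η) : Fn A v η p :=
  ⟨Unit, inferInstance, fun _ => p, fun _ => hp, fun _ => hpp,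
    fun i j hij => absurd (Subsingleton.elim i j) hij, by simp, fun _ => h⟩

theorem fn_add {A : StarSubalgebra ℂ (H →L[ℂ] H)} {v : H} {η : ℝ} {p p' : H →L[ℂ] H}
    (h0 : p * p' = 0) (h0' : p' * p = 0) (h : Fn A v η p) (h' : Fn A v η p') :
    Fn A v η (p + p') := by
  classical
  obtain ⟨ι, _, q, h1, h2, h3, h4, h5⟩ := h
  obtain ⟨κ, _, q', h1', h2', h3', h4', h5'⟩ := h'
  have hl : ∀ i, q i * p = q i := by
    intro i
    rw [← h4, Finset.mul_sum, Finset.sum_eq_single i]
    · exact (h2 i).isIdempotentElem.eq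
    · intro j _ hj
      exact h3 i j (Ne.symm hj)
    · intro hi
      exact absurd (Finset.mem_univ i) hi
  have hr : ∀ i, p * q i = q i := by
    intro i
    rw [← h4, Finset.sum_mul, Finset.sum_eq_single i]
    · exact (h2 i).isIdempotentElem.eq
    · intro j _ hj
      exact h3 j i hj
    · intro hi
      exact absurd (Finset.mem_univ i) hi
  have hl' : ∀ i, q' i * p' = q' i := by
    intro i
    rw [← h4', Finset.mul_sum, Finset.sum_eq_single i]
    · exact (h2' i).isIdempotentElem.eq
    · intro j _ hj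
      exact h3' i j (Ne.symm hj)
    · intro hi
      exact absurd (Finset.mem_univ i) hi
  have hr' : ∀ i, p' * q' i = q' i := by
    intro i
    rw [← h4', Finset.sum_mul, Finset.sum_eq_single i]
    · exact (h2' i).isIdempotentElem.eq
    · intro j _ hj
      exact h3' j i hj
    · intro hi
      exact absurd (Finset.mem_univ i) hi
  have c1 : ∀ i j, q i * q' j = 0 := by
    intro i j
    rw [← hl i, ← hr' j]
    calc q i * p * (p' * q' j) = q i * (p * p') * q' j := by simp only [mul_assoc]
      _ = 0 := by rw [h0, mul_zero, zero_mul]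
  have c2 : ∀ i j, q' j * q i = 0 := by
    intro i j
    rw [← hl' j, ← hr i]
    calc q' j * p' * (p * q i) = q' j * (p' * p) * q i := by simp only [mul_assoc]
      _ = 0 := by rw [h0', mul_zero, zero_mul]
  refine ⟨ι ⊕ κ, inferInstance, Sum.elim q q', ?_, ?_, ?_, ?_, ?_⟩
  · rintro (i | i)
    · exact h1 i
    · exact h1' i
  · rintro (i | i)
    · exact h2 i
    · exact h2' i
  · rintro (i | i) (j | j) hij
    · exact h3 i j (fun e => hij (by rw [e]))
    · exact c1 i j
    · exact c2 j i
    · exact h3' i j (fun e => hij (by rw [e]))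
  · rw [Fintype.sum_sum_type]
    simp only [Sum.elim_inl, Sum.elim_inr]
    rw [h4, h4']
  · rintro (i | i)
    · exact h5 i
    · exact h5' i

/-- for projections `p, p'` with `ker p ⊆ ker p'` one has `p' * p = p'` -/
theorem mul_of_ker {p p' : H →L[ℂ] H} (hp : IsStarProjection p)
    (h : ∀ u, p u = 0 → p' u = 0) : p' * p = p' := by
  ext u
  have h1 : p (u - p u) = 0 := by
    have : (p * p) u = p u := by rw [hp.isIdempotentElem.eq]
    have h2 : p (p u) = p u := this
    rw [map_sub, h2, sub_self]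
  have h2 := h _ h1
  rw [map_sub, sub_eq_zero] at h2
  exact h2.symm

theorem sub_proj {p p' : H →L[ℂ] H} (hp : IsStarProjection p) (hp' : IsStarProjection p')
    (h : p' * p = p') : IsStarProjection (p - p') ∧ p' * (p - p') = 0 ∧ (p - p') * p' = 0 := by
  have h' : p * p' = p' := by
    have := congrArg star h
    rwa [star_mul, hp.isSelfAdjoint.star_eq, hp'.isSelfAdjoint.star_eq] at this
  have e1 := hp.isIdempotentElem.eq
  have e2 := hp'.isIdempotentElem.eq
  refine ⟨⟨?_, hp.isSelfAdjoint.sub hp'.isSelfAdjoint⟩, ?_, ?_⟩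
  · show (p - p') * (p - p') = p - p'
    rw [mul_sub, sub_mul, sub_mul, e1, e2, h, h', sub_self, sub_zero]
  · rw [mul_sub, h, e2, sub_self]
  · rw [sub_mul, h', e2, sub_self]

theorem fn_one {A : StarSubalgebra ℂ (H →L[ℂ] H)} (hA : Ms A) (hP : PROJ A)
    (hN : NoMinimal A) (v : H) {η : ℝ} (hη : 0 < η) : Fn A v η 1 := by
  classical
  by_contra hne
  let T : Set (Submodule ℂ H) := {U | ∃ p ∈ A, IsStarProjection p ∧ ¬ Fn A v η p ∧
    ∀ u, u ∈ U ↔ p u = 0}
  have hbot : (⊥ : Submodule ℂ H) ∈ T := by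
    refine ⟨1, one_mem A, .one _, hne, fun u => ?_⟩
    rw [Submodule.mem_bot]
    rfl
  obtain ⟨U, -, hU⟩ := zorn_le_nonempty₀ T (by
    intro C hCT hC U0 hU0
    set W : Submodule ℂ H := (sSup C).topologicalClosure with hW
    have hcl : IsClosed (W : Set H) := Submodule.isClosed_topologicalClosure _
    have : CompleteSpace W := hcl.completeSpace_coe
    have hdir : DirectedOn (· ≤ ·) C := hC.directedOn
    have hmem : ∀ u, u ∈ sSup C ↔ ∃ U ∈ C, u ∈ U := fun u =>
      Submodule.mem_sSup_of_directed ⟨U0, hU0⟩ hdir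
    have hinv : ∀ a ∈ A, ∀ u ∈ W, a u ∈ W := by
      intro a ha u hu
      have h1 : u ∈ closure ((sSup C : Submodule ℂ H) : Set H) := hu
      have h2 : a u ∈ closure ((sSup C : Submodule ℂ H) : Set H) := by
        refine map_mem_closure a.continuous h1 ?_
        intro u hu
        obtain ⟨U, hUC, hu⟩ := (hmem u).mp hu
        obtain ⟨p, hp, hpp, -, hpk⟩ := hCT hUC
        refine (hmem (a u)).mpr ⟨U, hUC, ?_⟩
        rw [hpk] at hu ⊢
        have h3 : (p * a) u = (a * p) u := by rw [Spec.comm_of hA hp ha]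
        have h4 : p (a u) = a (p u) := h3
        rw [h4, hu, map_zero]
      exact h2
    have hWA : W.starProjection ∈ A := hP W hinv
    have hWp : IsStarProjection W.starProjection := isStarProjection_starProjection
    set p0 : H →L[ℂ] H := 1 - W.starProjection with hp0
    have hp0A : p0 ∈ A := sub_mem (one_mem A) hWA
    have hp0p : IsStarProjection p0 := hWp.one_sub
    have hker : ∀ u, u ∈ W ↔ p0 u = 0 := by
      intro u
      have : p0 u = u - W.starProjection u := rfl
      rw [this, sub_eq_zero]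
      exact ⟨fun h => (Submodule.starProjection_eq_self_iff.mpr h).symm,
        fun h => Submodule.starProjection_eq_self_iff.mp h.symm⟩
    refine ⟨W, ⟨p0, hp0A, hp0p, ?_, hker⟩, ?_⟩
    · intro hfine
      have h4 : W.starProjection v ∈ closure ((sSup C : Submodule ℂ H) : Set H) :=
        W.starProjection_apply_mem v
      obtain ⟨u, hu, hud⟩ := Metric.mem_closure_iff.mp h4 η hη
      obtain ⟨U, hUC, huU⟩ := (hmem u).mp hu
      obtain ⟨p, hp, hpp, hpn, hpk⟩ := hCT hUC
      have hUW : ∀ u, p u = 0 → p0 u = 0 := by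
        intro u hu
        rw [← hpk] at hu
        rw [← hker]
        exact subset_closure ((hmem u).mpr ⟨U, hUC, hu⟩)
      have h5 := mul_of_ker hpp hUW
      obtain ⟨h6, h7, h8⟩ := sub_proj hpp hp0p h5
      apply hpn
      have h9 : p = p0 + (p - p0) := by abel
      rw [h9]
      refine fn_add h7 h8 hfine (fn_single (sub_mem hp hp0A) h6 ?_)
      have h10 : p * p0 = p0 := by
        have := congrArg star h5
        rwa [star_mul, hpp.isSelfAdjoint.star_eq, hp0p.isSelfAdjoint.star_eq] at this
      have h11 : (p - p0) v = p (W.starProjection v - u) := by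
        have e1 : (p * p0) v = p0 v := by rw [h10]
        have e2 : p (p0 v) = p0 v := e1
        have e3 : (p - p0) v = p v - p0 v := rfl
        have e4 : p0 v = v - W.starProjection v := rfl
        rw [e3, ← e2, e4, map_sub, map_sub, (hpk u).mp huU]
        abel
      rw [h11]
      calc ‖p (W.starProjection v - u)‖ ≤ ‖W.starProjection v - u‖ := by
            have hn : ‖p‖ ≤ 1 := hpp.norm_le
            calc ‖p (W.starProjection v - u)‖ ≤ ‖p‖ * ‖W.starProjection v - u‖ := p.le_opNorm _
              _ ≤ 1 * ‖W.starProjection v - u‖ := by gcongr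
              _ = _ := one_mul _
        _ ≤ η := by
            rw [← dist_eq_norm]
            exact hud.le
    · intro U hUC u hu
      exact subset_closure ((hmem u).mpr ⟨U, hUC, hu⟩)) ⊥ hbot
  obtain ⟨⟨p, hp, hpp, hpn, hpk⟩, hmax⟩ := hU
  have hpne : p ≠ 0 := by
    rintro rfl
    exact hpn (fn_zero A v η)
  obtain ⟨p', hp', hpp', hne', hnep, hmul⟩ := hN p hp hpp hpne
  have hmul' : p' * p = p' := by
    have := congrArg star hmul
    rwa [star_mul, hpp.isSelfAdjoint.star_eq, hpp'.isSelfAdjoint.star_eq] at this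
  obtain ⟨h6, h7, h8⟩ := sub_proj hpp hpp' hmul'
  -- a non-fine smaller projection equals `p`
  have key : ∀ s : H →L[ℂ] H, s ∈ A → IsStarProjection s → s * p = s → ¬ Fn A v η s → s = p := by
    intro s hs hsp hsm hsn
    let V : Submodule ℂ H := LinearMap.ker (s : H →L[ℂ] H).toLinearMap
    have hV : ∀ u, u ∈ V ↔ s u = 0 := fun u => Iff.rfl
    have hVT : V ∈ T := ⟨s, hs, hsp, hsn, hV⟩
    have hUV : U ≤ V := by
      intro u hu
      rw [hV]
      rw [hpk] at hu
      have : (s * p) u = s u := by rw [hsm]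
      have h1 : s (p u) = s u := this
      rw [← h1, hu, map_zero]
    have hVU := hmax hVT hUV
    have h1 : p * s = p := mul_of_ker hsp (fun u hu => (hpk u).mp (hVU hu))
    have h2 : s * p = p := by
      have := congrArg star h1
      rwa [star_mul, hpp.isSelfAdjoint.star_eq, hsp.isSelfAdjoint.star_eq] at this
    rw [← hsm, h2]
  have f1 : Fn A v η p' := by
    by_contra h
    exact hnep (key p' hp' hpp' hmul' h)
  have f2 : Fn A v η (p - p') := by
    by_contra h
    have h1 : (p - p') * p = p - p' := by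
      rw [sub_mul, hpp.isIdempotentElem.eq, hmul']
    have h2 := key (p - p') (sub_mem hp hp') h6 h1 h
    apply hne'
    have h3 : p - (p - p') = p' := by abel
    rw [← h3, h2, sub_self]
  apply hpn
  have h9 : p = p' + (p - p') := by abel
  rw [h9]
  exact fn_add h7 h8 f1 f2

theorem fine_proof (A : StarSubalgebra ℂ (H →L[ℂ] H)) (hA : Ms A) (hP : PROJ A)
    (hN : NoMinimal A) : FINE A := by
  classical
  intro v η hη
  obtain ⟨ι, _, q, h1, h2, h3, h4, h5⟩ := fn_one hA hP hN v hη
  let e := Fintype.equivFin ι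
  refine ⟨Fintype.card ι, fun i => q (e.symm i), ⟨fun i => h1 _, fun i => h2 _, ?_, ?_⟩,
    fun j => h5 _⟩
  · intro i j hij
    exact h3 _ _ (fun h => hij (e.symm.injective h))
  · rw [Equiv.sum_comp e.symm q, h4]

end Vale.Agent.P078.Fine
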