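import Vale.Agent.P078.Mods

/-!
P078, module LIT: the literal definition of a MASA of `B(H)` gives `A' = A`.
-/

namespace Vale.Agent.P078.Lit

open scoped ComplexInnerProductSpace

variable {H : Type*} [NormedAddCommGroup H] [InnerProductSpace ℂ H] [CompleteSpace H]

theorem sa_mem {A : StarSubalgebra ℂ (H →L[ℂ] H)} (hM : IsMasa (allOps H) A) {h : H →L[ℂ] H}
    (hs : IsSelfAdjoint h) (hc : ∀ a ∈ A, a * h = h * a) : h ∈ A := by
  let S : Set (H →L[ℂ] H) := (A : Set (H →L[ℂ] H)) ∪ {h}
  have hS : ∀ s ∈ S, star s ∈ S := by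
    rintro s (hs' | hs')
    · exact Or.inl (star_mem (s := A) hs')
    · rw [Set.mem_singleton_iff] at hs'
      subst hs'
      right
      exact hs.star_eq
  have hcomm : ∀ s ∈ S, ∀ t ∈ S, s * t = t * s := by
    rintro s (hs' | hs') t (ht | ht)
    · exact hM.2.1 s hs' t ht
    · rw [Set.mem_singleton_iff] at ht
      subst ht
      exact hc s hs'
    · rw [Set.mem_singleton_iff] at hs'
      subst hs'
      exact (hc t ht).symm
    · rw [Set.mem_singleton_iff] at hs' ht
      subst hs'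
      subst ht
      rfl
  have hC : ∀ g, g ∈ StarSubalgebra.centralizer ℂ S ↔ ∀ s ∈ S, s * g = g * s := by
    intro g
    rw [StarSubalgebra.mem_centralizer_iff]
    exact ⟨fun h s hs => (h s hs).1, fun h s hs => ⟨h s hs, h _ (hS s hs)⟩⟩
  have hSB : ∀ s ∈ S, s ∈ StarSubalgebra.centralizer ℂ
      ((StarSubalgebra.centralizer ℂ S : StarSubalgebra ℂ (H →L[ℂ] H)) : Set (H →L[ℂ] H)) := by
    intro s hs
    rw [StarSubalgebra.mem_centralizer_iff]
    intro g hg
    have hg' : star g ∈ StarSubalgebra.centralizer ℂ S := star_mem hg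
    exact ⟨((hC g).mp hg s hs).symm, ((hC _).mp hg' s hs).symm⟩
  have hBC : ∀ b ∈ StarSubalgebra.centralizer ℂ
      ((StarSubalgebra.centralizer ℂ S : StarSubalgebra ℂ (H →L[ℂ] H)) : Set (H →L[ℂ] H)),
      b ∈ StarSubalgebra.centralizer ℂ S := by
    intro b hb
    rw [StarSubalgebra.mem_centralizer_iff] at hb
    rw [hC]
    intro s hs
    exact (hb s ((hC s).mpr (fun t ht => hcomm t ht s hs))).1
  have hBA := hM.2.2 (StarSubalgebra.centralizer ℂ
      ((StarSubalgebra.centralizer ℂ S : StarSubalgebra ℂ (H →L[ℂ] H)) : Set (H →L[ℂ] H)))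
    (fun a ha => hSB a (Or.inl ha)) (fun _ _ => trivial) (fun a ha b hb => by
      rw [StarSubalgebra.mem_centralizer_iff] at hb
      exact (hb a (hBC a ha)).1)
  rw [← hBA]
  exact hSB h (Or.inr rfl)

theorem lit_proof (A : StarSubalgebra ℂ (H →L[ℂ] H)) : LIT A := by
  intro hM x
  refine ⟨fun hx a ha => hM.2.1 a ha x hx, fun hx => ?_⟩
  have hsx : ∀ a ∈ A, a * star x = star x * a := by
    intro a ha
    have := congrArg star (hx (star a) (star_mem ha))
    rw [star_mul, star_mul, star_star] at this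
    exact this.symm
  have hr : ∀ t : ℝ, IsSelfAdjoint (t : ℂ) := fun t => Complex.conj_ofReal t
  set h1 : H →L[ℂ] H := (((1 / 2 : ℝ)) : ℂ) • (x + star x) with hh1
  set h2 : H →L[ℂ] H := (((-1 / 2 : ℝ)) : ℂ) • (Complex.I • (x - star x)) with hh2
  have s1 : IsSelfAdjoint h1 := by
    refine IsSelfAdjoint.smul (hr _) ?_
    show star _ = _
    rw [star_add, star_star, add_comm]
  have s2 : IsSelfAdjoint h2 := by
    refine IsSelfAdjoint.smul (hr _) ?_
    show star _ = _
    rw [star_smul, star_sub, star_star]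
    have : star Complex.I = -Complex.I := Complex.conj_I
    rw [this, neg_smul, ← smul_neg, neg_sub]
  have m1 : h1 ∈ A := sa_mem hM s1 (fun a ha => by
    rw [hh1, mul_smul_comm, smul_mul_assoc, mul_add, add_mul, hx a ha, hsx a ha])
  have m2 : h2 ∈ A := sa_mem hM s2 (fun a ha => by
    rw [hh2, mul_smul_comm, smul_mul_assoc, mul_smul_comm, smul_mul_assoc, mul_sub, sub_mul,
      hx a ha, hsx a ha])
  have hb' : x = h1 + Complex.I • h2 := by
    rw [hh1, hh2, smul_comm Complex.I, smul_smul Complex.I Complex.I, Complex.I_mul_I,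
      smul_smul, ← sub_eq_zero]
    have e1 : (((-1 / 2 : ℝ)) : ℂ) * -1 = (((1 / 2 : ℝ)) : ℂ) := by push_cast; ring
    rw [e1, ← smul_add]
    have e2 : x + star x + (x - star x) = (2 : ℂ) • x := by
      rw [two_smul]; abel
    rw [e2, smul_smul]
    have e3 : (((1 / 2 : ℝ)) : ℂ) * 2 = 1 := by push_cast; norm_num
    rw [e3, one_smul, sub_self]
  rw [hb']
  exact add_mem m1 (A.smul_mem m2 _)

end Vale.Agent.P078.Lit
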