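import Vale.Agent.P078.Mods

/-! P078, module UPP: the upper bound. -/

namespace Vale.Agent.P078.UPPm

open scoped ComplexInnerProductSpace

variable {H : Type*} [NormedAddCommGroup H] [InnerProductSpace ℂ H] [CompleteSpace H]

theorem sa_inner {T : H →L[ℂ] H} (hT : IsSelfAdjoint T) (u v : H) : ⟪T u, v⟫ = ⟪u, T v⟫ := by
  have h1 := ContinuousLinearMap.adjoint_inner_left T v u
  rw [← ContinuousLinearMap.star_eq_adjoint, hT.star_eq] at h1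
  exact h1

theorem norm_le_of_quad (T : H →L[ℂ] H) (hT : IsSelfAdjoint T) (C : ℝ) (hC : 0 ≤ C)
    (h : ∀ u, ‖⟪u, T u⟫‖ ≤ C * ‖u‖ ^ 2) : ‖T‖ ≤ C := by
  have key : ∀ u v : H, 4 * (⟪v, T u⟫).re ≤ 2 * C * (‖u‖ ^ 2 + ‖v‖ ^ 2) := by
    intro u v
    have e1 : ⟪u + v, T (u + v)⟫ - ⟪u - v, T (u - v)⟫ = 2 * (⟪u, T v⟫ + ⟪v, T u⟫) := by
      simp only [map_add, map_sub, inner_add_left, inner_add_right, inner_sub_left,
        inner_sub_right]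
      ring
    have e2 : ⟪u, T v⟫ = (starRingEnd ℂ) ⟪v, T u⟫ := by
      rw [inner_conj_symm, sa_inner hT]
    have e3 : (⟪u, T v⟫ + ⟪v, T u⟫).re = 2 * (⟪v, T u⟫).re := by
      rw [e2, Complex.add_re, Complex.conj_re]
      ring
    have e4 : 4 * (⟪v, T u⟫).re = (⟪u + v, T (u + v)⟫ - ⟪u - v, T (u - v)⟫).re := by
      rw [e1]
      have : (2 * (⟪u, T v⟫ + ⟪v, T u⟫) : ℂ).re = 2 * (⟪u, T v⟫ + ⟪v, T u⟫).re := by
        simp
      rw [this, e3]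
      ring
    rw [e4]
    have e5 := Complex.abs_re_le_norm (⟪u + v, T (u + v)⟫ - ⟪u - v, T (u - v)⟫)
    have e6 := norm_sub_le (⟪u + v, T (u + v)⟫) (⟪u - v, T (u - v)⟫)
    have e7 := h (u + v)
    have e8 := h (u - v)
    have e9 := parallelogram_law_with_norm ℂ u v
    have e10 := le_abs_self ((⟪u + v, T (u + v)⟫ - ⟪u - v, T (u - v)⟫).re)
    nlinarith
  refine ContinuousLinearMap.opNorm_le_bound T hC (fun u => ?_)
  by_cases hu : ‖u‖ = 0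
  · rw [norm_eq_zero.1 hu]
    simp
  by_cases hTu : ‖T u‖ = 0
  · rw [hTu]
    exact mul_nonneg hC (norm_nonneg _)
  have hu' : 0 < ‖u‖ := lt_of_le_of_ne (norm_nonneg _) (Ne.symm hu)
  have hTu' : 0 < ‖T u‖ := lt_of_le_of_ne (norm_nonneg _) (Ne.symm hTu)
  have h1 := key u (((‖u‖ / ‖T u‖ : ℝ) : ℂ) • T u)
  rw [inner_smul_left, inner_self_eq_norm_sq_to_K, norm_smul] at h1
  have h2 : ((starRingEnd ℂ) ((‖u‖ / ‖T u‖ : ℝ) : ℂ) * ((‖T u‖ : ℝ) : ℂ) ^ 2).re =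
      ‖u‖ * ‖T u‖ := by
    rw [Complex.conj_ofReal, ← Complex.ofReal_pow, ← Complex.ofReal_mul, Complex.ofReal_re]
    field_simp
  have h3 : ‖((‖u‖ / ‖T u‖ : ℝ) : ℂ)‖ * ‖T u‖ = ‖u‖ := by
    rw [Complex.norm_real, Real.norm_of_nonneg (by positivity)]
    field_simp
  have h4 : (((starRingEnd ℂ) ((‖u‖ / ‖T u‖ : ℝ) : ℂ) * (((‖T u‖ : ℝ) : ℂ)) ^ 2)).re =
      ‖u‖ * ‖T u‖ := h2
  rw [h3] at h1
  have h5 : 4 * (‖u‖ * ‖T u‖) ≤ 2 * C * (‖u‖ ^ 2 + ‖u‖ ^ 2) := by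
    rw [← h4]
    exact h1
  have h6 : ‖u‖ * ‖T u‖ ≤ ‖u‖ * (C * ‖u‖) := by nlinarith
  exact le_of_mul_le_mul_left h6 hu'

omit [CompleteSpace H] in
theorem quad_small {V : Submodule ℂ H} {m : ℕ} (E : OrthonormalBasis (Fin m) ℂ V)
    (T : H →L[ℂ] H) (η : ℝ) (hη : 0 ≤ η) (h : ∀ i l, ‖⟪(E i : H), T (E l : H)⟫‖ ≤ η)
    (ξ : V) : ‖⟪(ξ : H), T ξ⟫‖ ≤ m * η * ‖(ξ : H)‖ ^ 2 := by
  have e1 : (ξ : H) = ∑ i, ⟪E i, ξ⟫ • (E i : H) := by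
    have := congrArg (fun z : V => (z : H)) (E.sum_repr' ξ)
    simp only [Submodule.coe_sum, Submodule.coe_smul] at this
    exact this.symm
  have e2 : ⟪(ξ : H), T ξ⟫ = ∑ i, ∑ l, (starRingEnd ℂ) ⟪E i, ξ⟫ * ⟪E l, ξ⟫ *
      ⟪(E i : H), T (E l : H)⟫ := by
    conv_lhs => rw [e1]
    rw [map_sum, sum_inner]
    refine Finset.sum_congr rfl (fun i _ => ?_)
    rw [inner_sum]
    refine Finset.sum_congr rfl (fun l _ => ?_)
    rw [map_smul, inner_smul_left, inner_smul_right]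
    ring
  have e3 : ‖⟪(ξ : H), T ξ⟫‖ ≤ ∑ i, ∑ l, ‖⟪E i, ξ⟫‖ * ‖⟪E l, ξ⟫‖ * η := by
    rw [e2]
    refine (norm_sum_le _ _).trans (Finset.sum_le_sum (fun i _ => ?_))
    refine (norm_sum_le _ _).trans (Finset.sum_le_sum (fun l _ => ?_))
    rw [norm_mul, norm_mul, RCLike.norm_conj]
    exact mul_le_mul_of_nonneg_left (h i l) (by positivity)
  have e4 : ∑ i, ∑ l, ‖⟪E i, ξ⟫‖ * ‖⟪E l, ξ⟫‖ * η = η * (∑ i, ‖⟪E i, ξ⟫‖) ^ 2 := by
    rw [sq, Finset.sum_mul_sum, Finset.mul_sum]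
    refine Finset.sum_congr rfl (fun i _ => ?_)
    rw [Finset.mul_sum]
    refine Finset.sum_congr rfl (fun l _ => ?_)
    ring
  have e5 : (∑ i, ‖⟪E i, ξ⟫‖) ^ 2 ≤ m * ∑ i, ‖⟪E i, ξ⟫‖ ^ 2 := by
    have := sq_sum_le_card_mul_sum_sq (s := Finset.univ) (f := fun i => ‖⟪E i, ξ⟫‖)
    simpa using this
  have e6 : ∑ i, ‖⟪E i, ξ⟫‖ ^ 2 = ‖(ξ : H)‖ ^ 2 := by
    rw [E.sum_sq_norm_inner_right ξ]
    rfl
  rw [e6] at e5
  rw [e4] at e3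
  nlinarith

theorem norm10 (a1 a2 a3 a4 a5 a6 a7 a8 a9 a10 : ℂ) (K B : ℝ) (h1 : ‖a1‖ ≤ K) (h2 : ‖a2‖ ≤ K)
    (h3 : ‖a3‖ ≤ K) (h4 : ‖a4‖ ≤ K) (h5 : ‖a5‖ ≤ B) (h6 : ‖a6‖ ≤ K) (h7 : ‖a7‖ ≤ K)
    (h8 : ‖a8‖ ≤ K) (h9 : ‖a9‖ ≤ K) (h10 : ‖a10‖ ≤ K) :
    ‖a1 + a2 + a3 + a4 + a5 + a6 + a7 + a8 - a9 - a10‖ ≤ B + 9 * K := by
  have u1 := norm_sub_le (a1 + a2 + a3 + a4 + a5 + a6 + a7 + a8 - a9) a10
  have u2 := norm_sub_le (a1 + a2 + a3 + a4 + a5 + a6 + a7 + a8) a9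
  have u3 := norm_add_le (a1 + a2 + a3 + a4 + a5 + a6 + a7) a8
  have u4 := norm_add_le (a1 + a2 + a3 + a4 + a5 + a6) a7
  have u5 := norm_add_le (a1 + a2 + a3 + a4 + a5) a6
  have u6 := norm_add_le (a1 + a2 + a3 + a4) a5
  have u7 := norm_add_le (a1 + a2 + a3) a4
  have u8 := norm_add_le (a1 + a2) a3
  have u9 := norm_add_le a1 a2
  linarith

theorem aux1 {c z K : ℝ} (_h0 : 0 ≤ c) (h1 : c ≤ 1) (hz : 0 ≤ z) (hK : z ≤ K) : c * z ≤ K := by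
  nlinarith

/-- the main estimate on one vector -/
theorem main_est (B s τ ri K : ℝ) (r11 r12 r21 r22 x11 x12 x21 x22 f11 f12 f21 S T R : ℂ)
    (hS : S = (s : ℂ)) (hT : T = (τ : ℂ)) (hR : R = (ri : ℂ))
    (hs0 : 0 < s) (hs1 : s ≤ 1) (hτ0 : 0 ≤ τ) (hτ1 : τ ≤ 1) (hτ : S ^ 2 = T * (1 + S ^ 2))
    (hri0 : 0 ≤ ri) (hri1 : ri ≤ 1)
    (h11 : ‖r11‖ ≤ K) (h12 : ‖r12‖ ≤ K) (h21 : ‖r21‖ ≤ K) (h22 : ‖r22‖ ≤ K)
    (hx11 : ‖x11‖ ≤ B) (hx12 : ‖x12‖ ≤ K) (hx21 : ‖x21‖ ≤ K)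
    (hx22 : ‖x22 - f11‖ ≤ K) (hf12 : ‖f12‖ ≤ K) (hf21 : ‖f21‖ ≤ K) :
    ‖(r11 + S * r12 + S * r21 + S ^ 2 * r22) + R * (x11 + S * x12 + S * x21 + S ^ 2 * x22) -
      R * T * (f11 + S * f12 + S * f21 + S ^ 2 * f11)‖ ≤ ri * B + 9 * K := by
  have e : (r11 + S * r12 + S * r21 + S ^ 2 * r22) + R * (x11 + S * x12 + S * x21 + S ^ 2 * x22) -
      R * T * (f11 + S * f12 + S * f21 + S ^ 2 * f11) =
      r11 + S * r12 + S * r21 + S ^ 2 * r22 + R * x11 + R * S * x12 + R * S * x21 +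
        R * S ^ 2 * (x22 - f11) - R * T * S * f12 - R * T * S * f21 := by
    linear_combination (R * f11) * hτ
  rw [e]
  have n0 : ‖S‖ = s := by rw [hS, Complex.norm_real, Real.norm_of_nonneg hs0.le]
  have n1 : ‖R‖ = ri := by rw [hR, Complex.norm_real, Real.norm_of_nonneg hri0]
  have n2 : ‖T‖ = τ := by rw [hT, Complex.norm_real, Real.norm_of_nonneg hτ0]
  have hs2 : s ^ 2 ≤ 1 := pow_le_one₀ hs0.le hs1
  have hrs : ri * s ≤ 1 := mul_le_one₀ hri1 hs0.le hs1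
  have hrs0 : 0 ≤ ri * s := mul_nonneg hri0 hs0.le
  have hrs2 : ri * s ^ 2 ≤ 1 := mul_le_one₀ hri1 (sq_nonneg s) hs2
  have hrs20 : 0 ≤ ri * s ^ 2 := mul_nonneg hri0 (sq_nonneg s)
  have hrt' : ri * τ ≤ 1 := mul_le_one₀ hri1 hτ0 hτ1
  have hrt'' : 0 ≤ ri * τ := mul_nonneg hri0 hτ0
  have hrt : ri * τ * s ≤ 1 := mul_le_one₀ hrt' hs0.le hs1
  have hrt0 : 0 ≤ ri * τ * s := mul_nonneg hrt'' hs0.le
  refine norm10 _ _ _ _ _ _ _ _ _ _ K (ri * B) h11 ?_ ?_ ?_ ?_ ?_ ?_ ?_ ?_ ?_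
  · rw [norm_mul, n0]
    exact aux1 hs0.le hs1 (norm_nonneg _) h12
  · rw [norm_mul, n0]
    exact aux1 hs0.le hs1 (norm_nonneg _) h21
  · rw [norm_mul, norm_pow, n0]
    exact aux1 (sq_nonneg s) hs2 (norm_nonneg _) h22
  · rw [norm_mul, n1]
    exact mul_le_mul_of_nonneg_left hx11 hri0
  · rw [norm_mul, norm_mul, n0, n1]
    exact aux1 hrs0 hrs (norm_nonneg _) hx12
  · rw [norm_mul, norm_mul, n0, n1]
    exact aux1 hrs0 hrs (norm_nonneg _) hx21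
  · rw [norm_mul, norm_mul, norm_pow, n0, n1]
    exact aux1 hrs20 hrs2 (norm_nonneg _) hx22
  · rw [norm_mul, norm_mul, norm_mul, n0, n1, n2]
    exact aux1 hrt0 hrt (norm_nonneg _) hf12
  · rw [norm_mul, norm_mul, norm_mul, n0, n1, n2]
    exact aux1 hrt0 hrt (norm_nonneg _) hf21

theorem mem_allOps (q : H →L[ℂ] H) : q ∈ allOps H := by
  change q ∈ (⊤ : StarSubalgebra ℂ (H →L[ℂ] H))
  exact StarSubalgebra.mem_top

theorem pinch_sa {A : StarSubalgebra ℂ (H →L[ℂ] H)} {r : ℕ} {p : Fin r → H →L[ℂ] H}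
    (hp : IsPartition A p) {x : H →L[ℂ] H} (hx : IsSelfAdjoint x) :
    IsSelfAdjoint (pinch p x) := by
  unfold pinch
  rw [isSelfAdjoint_iff, star_sum]
  refine Finset.sum_congr rfl (fun i _ => ?_)
  rw [star_mul, star_mul, hx.star_eq, (hp.proj i).isSelfAdjoint.star_eq, mul_assoc]

theorem comm_of_ms {A : StarSubalgebra ℂ (H →L[ℂ] H)} (hA : Ms A) {a b : H →L[ℂ] H}
    (ha : a ∈ A) (hb : b ∈ A) : a * b = b * a := ((hA b).1 hb) a ha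

theorem real_smul_sa (t : ℝ) {x : H →L[ℂ] H} (hx : IsSelfAdjoint x) :
    IsSelfAdjoint ((t : ℂ) • x) := by
  rw [isSelfAdjoint_iff, star_smul, hx.star_eq]
  congr 1
  exact Complex.conj_ofReal t

theorem norm_w {w : H →L[ℂ] H} (hws : IsSelfAdjoint w) (hww : w * w = 1) (u : H) :
    ‖w u‖ = ‖u‖ := by
  have h1 : ⟪w u, w u⟫ = ⟪u, u⟫ := by
    rw [sa_inner hws]
    have : w (w u) = (w * w) u := rfl
    rw [this, hww]
    rfl
  rw [inner_self_eq_norm_sq_to_K, inner_self_eq_norm_sq_to_K] at h1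
  have h2 : ‖w u‖ ^ 2 = ‖u‖ ^ 2 := by exact_mod_cast h1
  exact (pow_left_inj₀ (norm_nonneg _) (norm_nonneg _) two_ne_zero).1 h2

theorem expand (R x f w y : H →L[ℂ] H) (s τ ri : ℝ) (ξ : H)
    (hyR : ∀ u : H, y u = R u + (ri : ℂ) • x u - ((ri : ℂ) * (τ : ℂ)) • f u)
    (hff : ⟪w ξ, f (w ξ)⟫ = ⟪ξ, f ξ⟫) :
    ⟪ξ + (s : ℂ) • w ξ, y (ξ + (s : ℂ) • w ξ)⟫ = (⟪ξ, R ξ⟫ + (s : ℂ) * ⟪ξ, R (w ξ)⟫ +
        (s : ℂ) * ⟪w ξ, R ξ⟫ + (s : ℂ) ^ 2 * ⟪w ξ, R (w ξ)⟫) +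
        (ri : ℂ) * (⟪ξ, x ξ⟫ + (s : ℂ) * ⟪ξ, x (w ξ)⟫ +
        (s : ℂ) * ⟪w ξ, x ξ⟫ + (s : ℂ) ^ 2 * ⟪w ξ, x (w ξ)⟫) -
        (ri : ℂ) * (τ : ℂ) * (⟪ξ, f ξ⟫ + (s : ℂ) * ⟪ξ, f (w ξ)⟫ +
        (s : ℂ) * ⟪w ξ, f ξ⟫ + (s : ℂ) ^ 2 * ⟪ξ, f ξ⟫) := by
  rw [hyR]
  simp only [map_add, map_smul, inner_add_left, inner_add_right, inner_sub_right,
    inner_smul_left, inner_smul_right, Complex.conj_ofReal, hff]
  ring

theorem norm_low {w : H →L[ℂ] H} (hws : IsSelfAdjoint w) (hww : w * w = 1) (u : H) (s K : ℝ)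
    (hs0 : 0 ≤ s) (hs1 : s ≤ 1) (hK : ‖⟪u, w u⟫‖ ≤ K) :
    (1 + s ^ 2) * ‖u‖ ^ 2 - 2 * K ≤ ‖u + (s : ℂ) • w u‖ ^ 2 := by
  have d1 : (((‖u + (s : ℂ) • w u‖ : ℝ) : ℂ)) ^ 2 = ((‖u‖ : ℝ) : ℂ) ^ 2 + (s : ℂ) * ⟪u, w u⟫ +
      (s : ℂ) * ⟪w u, u⟫ + (s : ℂ) ^ 2 * ((‖w u‖ : ℝ) : ℂ) ^ 2 := by
    have e1 := inner_self_eq_norm_sq_to_K (𝕜 := ℂ) (u + (s : ℂ) • w u)
    have e2 := inner_self_eq_norm_sq_to_K (𝕜 := ℂ) u
    have e3 := inner_self_eq_norm_sq_to_K (𝕜 := ℂ) (w u)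
    have e4 : ⟪u + (s : ℂ) • w u, u + (s : ℂ) • w u⟫ = ⟪u, u⟫ + (s : ℂ) * ⟪u, w u⟫ +
      (s : ℂ) * ⟪w u, u⟫ + (s : ℂ) ^ 2 * ⟪w u, w u⟫ := by
      simp only [inner_add_left, inner_add_right, inner_smul_left, inner_smul_right,
        Complex.conj_ofReal]
      ring
    rw [e2, e3] at e4
    exact e1.symm.trans e4
  have d2 : ‖u + (s : ℂ) • w u‖ ^ 2 = ‖u‖ ^ 2 + s * (⟪u, w u⟫).re +
      s * (⟪w u, u⟫).re + s ^ 2 * ‖w u‖ ^ 2 := by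
    have := congrArg Complex.re d1
    simpa [← Complex.ofReal_pow] using this
  have d3 : |(⟪u, w u⟫).re| ≤ K := (Complex.abs_re_le_norm _).trans hK
  have d4 : |(⟪w u, u⟫).re| ≤ K := by
    refine (Complex.abs_re_le_norm _).trans ?_
    rw [sa_inner hws]
    exact hK
  rw [norm_w hws hww] at d2
  have d5 := (abs_le.1 d3).1
  have d6 := (abs_le.1 d4).1
  have hK0 : 0 ≤ K := (norm_nonneg _).trans hK
  rw [d2]
  nlinarith

theorem real_final (ri N s m η X LL K : ℝ) (hri : 0 ≤ ri) (hN : 0 ≤ N) (hX : 0 ≤ X)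
    (hK : K = m * η * X) (hηm : m * η * (9 + 2 * (ri * N)) ≤ ri * N * s ^ 2)
    (c9 : (1 + s ^ 2) * X - 2 * K ≤ LL) : ri * (N * X) + 9 * K ≤ ri * N * LL := by
  have d1 : ri * N * ((1 + s ^ 2) * X - 2 * K) ≤ ri * N * LL :=
    mul_le_mul_of_nonneg_left c9 (mul_nonneg hri hN)
  have d2 : m * η * (9 + 2 * (ri * N)) * X ≤ ri * N * s ^ 2 * X :=
    mul_le_mul_of_nonneg_right hηm hX
  have d3 : m * η * (9 + 2 * (ri * N)) * X = K * (9 + 2 * (ri * N)) := by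
    rw [hK]
    ring
  rw [d3] at d2
  nlinarith

/-- the choice of the parameters and of the operators -/
theorem quad_main (A : StarSubalgebra ℂ (H →L[ℂ] H)) (hA : Ms A) (x w f f' P : H →L[ℂ] H)
    (hx : IsSelfAdjoint x) (s τ ri η : ℝ) {V : Submodule ℂ H} {m : ℕ}
    (E : OrthonormalBasis (Fin m) ℂ V)
    (hs0 : 0 < s) (hs1 : s ≤ 1) (hτ0 : 0 ≤ τ) (hτ1 : τ ≤ 1) (hτ : s ^ 2 = τ * (1 + s ^ 2))
    (hri0 : 0 < ri) (hri1 : ri ≤ 1) (hη0 : 0 < η)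
    (hηm : m * η * (9 + 2 * (ri * ‖x‖)) ≤ ri * ‖x‖ * s ^ 2)
    (hw : w ∈ A) (hws : IsSelfAdjoint w) (hww : w * w = 1) (hf : f ∈ A)
    (hosc : ∀ i l, ‖⟪w (E i : H), x (w (E l : H))⟫ - ⟪(E i : H), f (E l : H)⟫‖ ≤ η ∧
        ‖⟪(E i : H), w (E l : H)⟫‖ ≤ η ∧ ‖⟪(E i : H), x (w (E l : H))⟫‖ ≤ η ∧
        ‖⟪(E i : H), f (w (E l : H))⟫‖ ≤ η)
    (y R : H →L[ℂ] H) (hR : R = P - (ri : ℂ) • x - ((1 - ri : ℝ) : ℂ) • f')
    (hy : y = P - (((1 - ri : ℝ) : ℂ) • f' + ((ri * τ : ℝ) : ℂ) • f))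
    (e11 : ∀ i l, ‖⟪(E i : H), R (E l : H)⟫‖ ≤ η)
    (e12 : ∀ i l, ‖⟪(E i : H), R (w (E l : H))⟫‖ ≤ η)
    (e21 : ∀ i l, ‖⟪w (E i : H), R (E l : H)⟫‖ ≤ η)
    (e22 : ∀ i l, ‖⟪w (E i : H), R (w (E l : H))⟫‖ ≤ η) (ξ : V) :
    ‖⟪(ξ : H) + (s : ℂ) • w ξ, y ((ξ : H) + (s : ℂ) • w ξ)⟫‖ ≤
      ri * ‖x‖ * ‖(ξ : H) + (s : ℂ) • w ξ‖ ^ 2 := by
  have hyR : ∀ u : H, y u = R u + (ri : ℂ) • x u - ((ri : ℂ) * (τ : ℂ)) • f u := by
    intro u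
    simp only [hy, hR, sub_apply, add_apply, smul_apply]
    push_cast
    module
  have flipx : ∀ u v : H, ‖⟪w u, x v⟫‖ = ‖⟪v, x (w u)⟫‖ := by
    intro u v
    rw [← sa_inner hx, ← inner_conj_symm, RCLike.norm_conj]
  have hwf : ∀ u : H, w (f u) = f (w u) := by
    intro u
    have h1 := comm_of_ms hA hw hf
    exact congrArg (fun T : H →L[ℂ] H => T u) h1
  have hwwu : ∀ u : H, w (w u) = u := by
    intro u
    exact congrArg (fun T : H →L[ℂ] H => T u) hww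
  have hKle : ∀ (T : H →L[ℂ] H), (∀ i l, ‖⟪(E i : H), T (E l : H)⟫‖ ≤ η) →
      ‖⟪(ξ : H), T ξ⟫‖ ≤ m * η * ‖(ξ : H)‖ ^ 2 := fun T hT => quad_small E T η hη0.le hT ξ
  set K := m * η * ‖(ξ : H)‖ ^ 2 with hK
  have b1 : ‖⟪(ξ : H), R ξ⟫‖ ≤ K := hKle R e11
  have b2 : ‖⟪(ξ : H), R (w ξ)⟫‖ ≤ K := hKle (R * w) e12
  have b3 : ‖⟪w (ξ : H), R ξ⟫‖ ≤ K := by
    rw [sa_inner hws]
    refine hKle (w * R) (fun i l => ?_)
    have := e21 i l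
    rw [sa_inner hws] at this
    exact this
  have b4 : ‖⟪w (ξ : H), R (w ξ)⟫‖ ≤ K := by
    rw [sa_inner hws]
    refine hKle (w * R * w) (fun i l => ?_)
    have := e22 i l
    rw [sa_inner hws] at this
    exact this
  have b5 : ‖⟪(ξ : H), x (w ξ)⟫‖ ≤ K := hKle (x * w) (fun i l => (hosc i l).2.2.1)
  have b6 : ‖⟪w (ξ : H), x ξ⟫‖ ≤ K := by
    rw [flipx]
    exact b5
  have b7 : ‖⟪w (ξ : H), x (w ξ)⟫ - ⟪(ξ : H), f ξ⟫‖ ≤ K := by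
    have h0 : ∀ u v : H, ⟪w u, x (w v)⟫ - ⟪u, f v⟫ = ⟪u, (w * x * w - f) v⟫ := by
      intro u v
      rw [sa_inner hws, sub_apply, inner_sub_right]
      rfl
    rw [h0]
    refine hKle (w * x * w - f) (fun i l => ?_)
    rw [← h0]
    exact (hosc i l).1
  have b8 : ‖⟪(ξ : H), w ξ⟫‖ ≤ K := hKle w (fun i l => (hosc i l).2.1)
  have b9 : ‖⟪(ξ : H), f (w ξ)⟫‖ ≤ K := hKle (f * w) (fun i l => (hosc i l).2.2.2)
  have b10 : ‖⟪w (ξ : H), f ξ⟫‖ ≤ K := by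
    rw [sa_inner hws, hwf]
    exact b9
  have hff : ⟪w (ξ : H), f (w ξ)⟫ = ⟪(ξ : H), f ξ⟫ := by
    rw [sa_inner hws, hwf, hwwu]
  have c7 : ‖⟪(ξ : H), x ξ⟫‖ ≤ ‖x‖ * ‖(ξ : H)‖ ^ 2 := by
    refine (norm_inner_le_norm _ _).trans ?_
    have := x.le_opNorm (ξ : H)
    nlinarith [norm_nonneg (ξ : H)]
  have c8 := main_est (‖x‖ * ‖(ξ : H)‖ ^ 2) s τ ri K _ _ _ _ _ _ _ _ _ _ _ (s : ℂ) (τ : ℂ)
    (ri : ℂ) rfl rfl rfl hs0 hs1 hτ0 hτ1 (by exact_mod_cast congrArg (fun z : ℝ => (z : ℂ)) hτ)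
    hri0.le hri1 b1 b2 b3 b4 c7 b5 b6 b7 b9 b10
  rw [← expand R x f w y s τ ri (ξ : H) hyR hff] at c8
  have c9 := norm_low hws hww (ξ : H) s K hs0.le hs1 b8
  exact c8.trans (real_final ri ‖x‖ s m η (‖(ξ : H)‖ ^ 2) _ K hri0.le (norm_nonneg x)
    (sq_nonneg _) hK hηm c9)

theorem upp_proof (A : StarSubalgebra ℂ (H →L[ℂ] H)) (hA : Ms A) (hP : PAV A) (hO : OSC A) :
    UPP A := by
  classical
  intro x hx ε r hε hr hrε F δ hδ
  by_cases hN : ‖x‖ = 0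
  · have hx0 : x = 0 := norm_eq_zero.1 hN
    obtain ⟨p, f, hp, -⟩ := hP x hx ∅ 1 one_pos r hr
    refine ⟨p, 0, 1, hp, A.zero_mem, IsSelfAdjoint.zero _, by simp, mem_allOps _,
      ⟨IsIdempotentElem.one, IsSelfAdjoint.one _⟩, ?_, ?_⟩
    · intro ξ _
      simpa using hδ
    · rw [hx0]
      simp [pinch]
  have hN' : 0 < ‖x‖ := lt_of_le_of_ne (norm_nonneg _) (Ne.symm hN)
  set N := ‖x‖ with hNdef
  set V := Submodule.span ℂ (F : Set H) with hV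
  have : FiniteDimensional ℂ V := FiniteDimensional.span_finset ℂ F
  set m := Module.finrank ℂ V with hm
  set E := stdOrthonormalBasis ℂ V with hE
  set B := 1 + ∑ v ∈ F, ‖v‖ with hB
  have hBpos : 0 < B := by
    have : 0 ≤ ∑ v ∈ F, ‖v‖ := Finset.sum_nonneg (fun v _ => norm_nonneg v)
    linarith
  have hBv : ∀ v ∈ F, ‖v‖ < B := by
    intro v hv
    have : ‖v‖ ≤ ∑ v ∈ F, ‖v‖ :=
      Finset.single_le_sum (f := fun v : H => ‖v‖) (fun v _ => norm_nonneg v) hv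
    linarith
  set s := min 1 (δ / (2 * B)) with hs
  have hs0 : 0 < s := lt_min one_pos (by positivity)
  have hs1 : s ≤ 1 := min_le_left _ _
  have hs2 : s ≤ δ / (2 * B) := min_le_right _ _
  set τ := s ^ 2 / (1 + s ^ 2) with hτdef
  have hτ0 : 0 ≤ τ := by positivity
  have hτ1 : τ ≤ 1 := by
    rw [hτdef, div_le_one (by positivity)]
    nlinarith
  have hτ : s ^ 2 = τ * (1 + s ^ 2) := by
    rw [hτdef]
    field_simp
  set ri : ℝ := 1 / (r : ℝ) with hri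
  have hrpos : (0 : ℝ) < r := by exact_mod_cast hr
  have hri0 : 0 < ri := by positivity
  have hri1 : ri ≤ 1 := by
    rw [hri, div_le_one hrpos]
    exact_mod_cast hr
  set η := ri * N * s ^ 2 / ((m + 1) * (9 + 2 * (ri * N))) with hη
  have hη0 : 0 < η := by positivity
  have hηm : m * η * (9 + 2 * (ri * N)) ≤ ri * N * s ^ 2 := by
    have h1 : (m + 1) * η * (9 + 2 * (ri * N)) = ri * N * s ^ 2 := by
      rw [hη]
      field_simp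
    have h2 : 0 ≤ η * (9 + 2 * (ri * N)) := by positivity
    nlinarith
  obtain ⟨w, f, hw, hws, hww, hf, hfs, hfn, hosc⟩ :=
    hO x hx (Finset.univ.image (fun i => (E i : H))) η hη0
  obtain ⟨p, f', hp, hf', hfs', hfn', hpav⟩ :=
    hP x hx (Finset.univ.image (fun i => (E i : H)) ∪
      (Finset.univ.image (fun i => (E i : H))).image w) η hη0 r hr
  have mE : ∀ i, (E i : H) ∈ Finset.univ.image (fun i => (E i : H)) := fun i =>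
    Finset.mem_image_of_mem _ (Finset.mem_univ i)
  have mE1 : ∀ i, (E i : H) ∈ Finset.univ.image (fun i => (E i : H)) ∪
      (Finset.univ.image (fun i => (E i : H))).image w := fun i =>
    Finset.mem_union_left _ (mE i)
  have mE2 : ∀ i, w (E i : H) ∈ Finset.univ.image (fun i => (E i : H)) ∪
      (Finset.univ.image (fun i => (E i : H))).image w := fun i =>
    Finset.mem_union_right _ (Finset.mem_image_of_mem _ (mE i))
  set a : H →L[ℂ] H := ((1 - ri : ℝ) : ℂ) • f' + ((ri * τ : ℝ) : ℂ) • f with ha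
  set y : H →L[ℂ] H := pinch p x - a with hy
  set R : H →L[ℂ] H := pinch p x - (ri : ℂ) • x - ((1 - ri : ℝ) : ℂ) • f' with hR
  have haA : a ∈ A := A.add_mem (A.smul_mem hf' _) (A.smul_mem hf _)
  have has : IsSelfAdjoint a := (real_smul_sa _ hfs').add (real_smul_sa _ hfs)
  have han : ‖a‖ ≤ N := by
    have h1 : ‖a‖ ≤ (1 - ri) * ‖f'‖ + (ri * τ) * ‖f‖ := by
      refine (norm_add_le _ _).trans ?_
      rw [norm_smul, norm_smul, Complex.norm_real, Complex.norm_real,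
        Real.norm_of_nonneg (by linarith), Real.norm_of_nonneg (by positivity)]
    have h2 : (1 - ri) * ‖f'‖ ≤ (1 - ri) * N := mul_le_mul_of_nonneg_left hfn' (by linarith)
    have h3 : (ri * τ) * ‖f‖ ≤ (ri * τ) * N := mul_le_mul_of_nonneg_left hfn (by positivity)
    have h4 : ri * τ * N ≤ ri * 1 * N := by
      refine mul_le_mul_of_nonneg_right (mul_le_mul_of_nonneg_left hτ1 hri0.le) hN'.le
    nlinarith
  have hys : IsSelfAdjoint y := (pinch_sa hp hx).sub has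
  have eR : ∀ u ∈ Finset.univ.image (fun i => (E i : H)) ∪
      (Finset.univ.image (fun i => (E i : H))).image w, ∀ u' ∈
      Finset.univ.image (fun i => (E i : H)) ∪
      (Finset.univ.image (fun i => (E i : H))).image w, ‖⟪u', R u⟫‖ ≤ η := by
    intro u hu u' hu'
    have h1 := hpav u hu u' hu'
    have h2 : ⟪u', R u⟫ = ⟪u', pinch p x u⟫ - (1 / (r : ℂ)) * ⟪u', x u⟫ -
        (1 - 1 / (r : ℂ)) * ⟪u', f' u⟫ := by
      simp only [hR, sub_apply, smul_apply, inner_sub_right, inner_smul_right, hri]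
      push_cast
      ring
    rw [h2]
    exact h1
  set L : H →L[ℂ] H := 1 + (s : ℂ) • w with hL
  have hLu : ∀ u : H, L u = u + (s : ℂ) • w u := by
    intro u
    simp [hL]
  have hmain : ∀ ξ : V, ‖⟪L ξ, y (L ξ)⟫‖ ≤ ri * N * ‖L ξ‖ ^ 2 := by
    intro ξ
    rw [hLu]
    exact quad_main A hA x w f f' (pinch p x) hx s τ ri η E hs0 hs1 hτ0 hτ1 hτ hri0 hri1 hη0
      hηm hw hws hww hf (fun i l => hosc _ (mE l) _ (mE i)) y R hR (by rw [hy, ha])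
      (fun i l => eR _ (mE1 l) _ (mE1 i)) (fun i l => eR _ (mE2 l) _ (mE1 i))
      (fun i l => eR _ (mE1 l) _ (mE2 i)) (fun i l => eR _ (mE2 l) _ (mE2 i)) ξ
  -- the projection
  set V' := V.map (L : H →ₗ[ℂ] H) with hV'
  set q := V'.starProjection with hq
  have hqs : IsStarProjection q := isStarProjection_starProjection
  refine ⟨p, a, q, hp, haA, has, han, mem_allOps q, hqs, ?_, ?_⟩
  · intro v hv
    have hvV : v ∈ V := Submodule.subset_span (Finset.mem_coe.2 hv)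
    have h1 : L v ∈ V' := Submodule.mem_map_of_mem hvV
    have h2 : q (L v) = L v := Submodule.starProjection_eq_self_iff.2 h1
    have h3 : (1 - q) v = (1 - q) (v - L v) := by
      rw [map_sub, sub_apply 1 q (L v), h2]
      simp
    have h4 : ‖(1 - q) (v - L v)‖ ≤ ‖v - L v‖ := by
      have e1 : (1 - q) = V'ᗮ.starProjection := by
        rw [Submodule.starProjection_orthogonal]
        rfl
      rw [e1]
      exact Submodule.norm_starProjection_apply_le _ _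
    have h5 : ‖v - L v‖ = s * ‖v‖ := by
      rw [hLu, sub_add_cancel_left, norm_neg, norm_smul, Complex.norm_real,
        Real.norm_of_nonneg hs0.le, norm_w hws hww]
    rw [h3]
    refine (h4.trans h5.le).trans_lt ?_
    have h6 := hBv v hv
    have h7 : s * ‖v‖ ≤ (δ / (2 * B)) * ‖v‖ := mul_le_mul_of_nonneg_right hs2 (norm_nonneg _)
    have h8 : (δ / (2 * B)) * ‖v‖ ≤ (δ / (2 * B)) * B :=
      mul_le_mul_of_nonneg_left h6.le (by positivity)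
    have h9 : (δ / (2 * B)) * B = δ / 2 := by field_simp
    linarith
  · have hT : IsSelfAdjoint (q * y * q) := by
      rw [isSelfAdjoint_iff, star_mul, star_mul, hqs.isSelfAdjoint.star_eq, hys.star_eq,
        mul_assoc]
    have h1 : ‖q * y * q‖ ≤ ri * N := by
      refine norm_le_of_quad _ hT _ (by positivity) (fun u => ?_)
      have e1 : ⟪u, (q * y * q) u⟫ = ⟪q u, y (q u)⟫ := by
        rw [sa_inner hqs.isSelfAdjoint]
        rfl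
      have e2 : q u ∈ V' := Submodule.starProjection_apply_mem _ _
      obtain ⟨ξ, hξ, hξ2⟩ := Submodule.mem_map.1 e2
      have e3 := hmain ⟨ξ, hξ⟩
      have e4 : L ξ = q u := hξ2
      simp only [e4] at e3
      rw [e1]
      refine e3.trans (mul_le_mul_of_nonneg_left ?_ (by positivity))
      have e5 : ‖q u‖ ≤ ‖u‖ := Submodule.norm_starProjection_apply_le _ _
      exact pow_le_pow_left₀ (norm_nonneg _) e5 2
    exact h1.trans (mul_le_mul_of_nonneg_right hrε hN'.le)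

end Vale.Agent.P078.UPPm
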