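import Vale.Agent.P078.Bnd
import Vale.Agent.P078.Upp

/-! P078, module LOW: the lower bound. -/

namespace Vale.Agent.P078.LOWm

open scoped ComplexInnerProductSpace
open BNDm
open UPPm hiding sa_inner

variable {H : Type*} [NormedAddCommGroup H] [InnerProductSpace ℂ H] [CompleteSpace H]

theorem part_mul {A : StarSubalgebra ℂ (H →L[ℂ] H)} {r : ℕ} {p : Fin r → H →L[ℂ] H}
    (hp : IsPartition A p) (x : H →L[ℂ] H) (i : Fin r) : p i * pinch p x = p i * x * p i := by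
  unfold pinch
  rw [Finset.mul_sum, Finset.sum_eq_single i]
  · rw [← mul_assoc, ← mul_assoc, (hp.proj i).isIdempotentElem.eq]
  · intro j _ hj
    rw [← mul_assoc, ← mul_assoc, hp.orth i j (Ne.symm hj), zero_mul, zero_mul]
  · intro h
    exact absurd (Finset.mem_univ i) h

theorem pinch_norm {A : StarSubalgebra ℂ (H →L[ℂ] H)} {r : ℕ} {p : Fin r → H →L[ℂ] H}
    (hp : IsPartition A p) (x : H →L[ℂ] H) : ‖pinch p x‖ ≤ ‖x‖ := by
  refine ContinuousLinearMap.opNorm_le_bound _ (norm_nonneg _) (fun u => ?_)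
  have h1 : ‖pinch p x u‖ ^ 2 ≤ (‖x‖ * ‖u‖) ^ 2 := by
    rw [← sum_norm_sq hp, mul_pow, ← sum_norm_sq hp u, Finset.mul_sum]
    refine Finset.sum_le_sum (fun i _ => ?_)
    have e1 : p i (pinch p x u) = p i (x (p i u)) :=
      congrArg (fun T : H →L[ℂ] H => T u) (part_mul hp x i)
    rw [e1, ← mul_pow]
    refine pow_le_pow_left₀ (norm_nonneg _) ?_ 2
    have e2 : ‖p i (x (p i u))‖ ≤ ‖x (p i u)‖ := by
      have h3 := sum_norm_sq hp (x (p i u))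
      have h4 : ‖p i (x (p i u))‖ ^ 2 ≤ ∑ j, ‖p j (x (p i u))‖ ^ 2 :=
        Finset.single_le_sum (f := fun j => ‖p j (x (p i u))‖ ^ 2) (fun j _ => sq_nonneg _)
          (Finset.mem_univ i)
      rw [h3] at h4
      exact (pow_le_pow_iff_left₀ (norm_nonneg _) (norm_nonneg _) two_ne_zero).1 h4
    exact e2.trans (x.le_opNorm _)
  exact (pow_le_pow_iff_left₀ (norm_nonneg _) (by positivity) two_ne_zero).1 h1

/-- `⟨u, pinch (2e-1) u⟩` -/
theorem quad_pinch {A : StarSubalgebra ℂ (H →L[ℂ] H)} {r : ℕ} {p : Fin r → H →L[ℂ] H}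
    (hp : IsPartition A p) (ξ : H) (hξ : ‖ξ‖ = 1) (u : H) :
    ⟪u, pinch p ((2 : ℂ) • (ℂ ∙ ξ).starProjection - 1) u⟫ =
      ((2 * ∑ i, ‖⟪ξ, p i u⟫‖ ^ 2 - ‖u‖ ^ 2 : ℝ) : ℂ) := by
  have h1 : ∀ i, ⟪u, (p i * ((2 : ℂ) • (ℂ ∙ ξ).starProjection - 1) * p i) u⟫ =
      2 * ((‖⟪ξ, p i u⟫‖ : ℝ) : ℂ) ^ 2 - ((‖p i u‖ : ℝ) : ℂ) ^ 2 := by
    intro i
    have e1 : (p i * ((2 : ℂ) • (ℂ ∙ ξ).starProjection - 1) * p i) u =
        p i ((2 : ℂ) • (ℂ ∙ ξ).starProjection (p i u) - p i u) := rfl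
    rw [e1, ← sa_inner (hp.proj i).isSelfAdjoint, Submodule.starProjection_unit_singleton ℂ hξ,
      inner_sub_right, inner_smul_right, inner_smul_right]
    have e2 : ⟪p i u, p i u⟫ = ((‖p i u‖ : ℝ) : ℂ) ^ 2 := inner_self_eq_norm_sq_to_K (𝕜 := ℂ) _
    have e3 : ⟪ξ, p i u⟫ * ⟪p i u, ξ⟫ = ((‖⟪ξ, p i u⟫‖ : ℝ) : ℂ) ^ 2 := by
      rw [← inner_conj_symm (p i u) ξ, Complex.mul_conj, Complex.normSq_eq_norm_sq]
      push_cast
      ring
    rw [e2, e3]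
  have h2 : ⟪u, pinch p ((2 : ℂ) • (ℂ ∙ ξ).starProjection - 1) u⟫ =
      ∑ i, ⟪u, (p i * ((2 : ℂ) • (ℂ ∙ ξ).starProjection - 1) * p i) u⟫ := by
    unfold pinch
    rw [sum_apply, inner_sum]
  rw [h2, Finset.sum_congr rfl (fun i _ => h1 i), Finset.sum_sub_distrib, ← Finset.mul_sum,
    ← sum_norm_sq hp u]
  push_cast
  rfl

theorem refl_norm (ξ : H) : ‖(2 : ℂ) • (ℂ ∙ ξ).starProjection - 1‖ ≤ 1 := by
  set e := (ℂ ∙ ξ).starProjection with he
  have hes : IsStarProjection e := isStarProjection_starProjection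
  have hw : IsSelfAdjoint ((2 : ℂ) • e - 1) := by
    refine IsSelfAdjoint.sub ?_ (IsSelfAdjoint.one _)
    have := real_smul_sa 2 hes.isSelfAdjoint
    simpa using this
  have hww : ((2 : ℂ) • e - 1) * ((2 : ℂ) • e - 1) = 1 := by
    have h1 : e * e = e := hes.isIdempotentElem.eq
    have h2 : ((2 : ℂ) • e - 1) * ((2 : ℂ) • e - 1) = (4 : ℂ) • (e * e) - (4 : ℂ) • e + 1 := by
      simp only [sub_mul, mul_sub, smul_mul_assoc, mul_smul_comm, one_mul, mul_one]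
      module
    rw [h2, h1]
    simp
  refine ContinuousLinearMap.opNorm_le_bound _ zero_le_one (fun u => ?_)
  rw [norm_w hw hww, one_mul]

theorem low_proof (A : StarSubalgebra ℂ (H →L[ℂ] H)) (hA : Ms A) (hF : FINE A)
    (hS : SGN.{0}) : LOW A := by
  classical
  intro ξ ε r hξ hε hr hpav
  by_contra hcon
  rw [not_le] at hcon
  set γ := 1 / (r : ℝ) - ε with hγ
  have hγ0 : 0 < γ := by linarith
  have hrpos : (0 : ℝ) < r := by exact_mod_cast hr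
  set η := min 1 (γ / 4) with hη
  have hη0 : 0 < η := lt_min one_pos (by positivity)
  have hη1 : η ≤ 1 := min_le_left _ _
  have hη2 : η ≤ γ / 4 := min_le_right _ _
  obtain ⟨N, q, hq, hqf⟩ := hF ξ η hη0
  set W : (Fin N → Bool) → H →L[ℂ] H := fun t => ∑ j, (if t j then (1 : ℂ) else -1) • q j with hW
  obtain ⟨p, a, g, hp, ha, has, han, -, hg, hgF, hgn⟩ :=
    hpav (insert ξ (Finset.univ.image (fun t => W t ξ))) (γ / 32) (by positivity)
  set x : H →L[ℂ] H := (2 : ℂ) • (ℂ ∙ ξ).starProjection - 1 with hx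
  have hx1 : ‖x‖ ≤ 1 := refl_norm ξ
  set y := pinch p x - a with hy
  have hyn : ‖y‖ ≤ 2 := by
    have := norm_sub_le (pinch p x) a
    have h2 := pinch_norm hp x
    linarith
  -- the compression bound
  have hquad : ∀ u : H, ‖u‖ = 1 → ‖(1 - g) u‖ < γ / 32 → ‖⟪u, y u⟫‖ ≤ ε + γ / 8 := by
    intro u hu hgu
    have e1 : ⟪u, y u⟫ = ⟪(1 - g) u, y u⟫ + ⟪g u, y ((1 - g) u)⟫ + ⟪u, (g * y * g) u⟫ := by
      have f1 : (1 - g) u = u - g u := rfl
      have f2 : ⟪u, (g * y * g) u⟫ = ⟪g u, y (g u)⟫ := by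
        rw [sa_inner hg.isSelfAdjoint]
        rfl
      rw [f2, f1, map_sub, inner_sub_left, inner_sub_right]
      ring
    have n1 : ‖g u‖ ≤ 1 := by
      have h5 : ((‖g u‖ : ℝ) : ℂ) ^ 2 = ⟪u, g u⟫ := proj_norm_sq hg u
      have h6 : ‖g u‖ ^ 2 ≤ ‖g u‖ := by
        have h7 : ‖((‖g u‖ : ℝ) : ℂ) ^ 2‖ ≤ ‖u‖ * ‖g u‖ := by
          rw [h5]
          exact norm_inner_le_norm _ _
        rw [norm_pow, Complex.norm_real, norm_norm, hu, one_mul] at h7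
        exact h7
      nlinarith [norm_nonneg (g u)]
    have n2 : ‖⟪(1 - g) u, y u⟫‖ ≤ γ / 16 := by
      refine (norm_inner_le_norm _ _).trans ?_
      have h3 := y.le_opNorm u
      rw [hu, mul_one] at h3
      nlinarith [norm_nonneg ((1 - g) u), norm_nonneg (y u)]
    have n3 : ‖⟪g u, y ((1 - g) u)⟫‖ ≤ γ / 16 := by
      refine (norm_inner_le_norm _ _).trans ?_
      have h3 := y.le_opNorm ((1 - g) u)
      have h4 : ‖y ((1 - g) u)‖ ≤ γ / 16 := by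
        nlinarith [norm_nonneg ((1 - g) u), norm_nonneg y]
      nlinarith [norm_nonneg (g u), norm_nonneg (y ((1 - g) u))]
    have n4 : ‖⟪u, (g * y * g) u⟫‖ ≤ ε := by
      refine (norm_inner_le_norm _ _).trans ?_
      have h3 := (g * y * g).le_opNorm u
      rw [hu, mul_one] at h3
      rw [hu, one_mul]
      refine h3.trans (hgn.trans ?_)
      nlinarith
    rw [e1]
    have m1 := norm_add_le (⟪(1 - g) u, y u⟫ + ⟪g u, y ((1 - g) u)⟫) (⟪u, (g * y * g) u⟫)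
    have m2 := norm_add_le (⟪(1 - g) u, y u⟫) (⟪g u, y ((1 - g) u)⟫)
    linarith
  -- signs
  obtain ⟨s, hs, hsum⟩ := hS (Fin r) Empty N (fun i j => ⟪ξ, p i (q j ξ)⟫) (fun e => e.elim)
  set t : Fin N → Bool := fun j => decide (s j = 1) with ht
  have hts : ∀ j, (if t j then (1 : ℂ) else -1) = (s j : ℂ) := by
    intro j
    rcases hs j with h | h
    · simp [ht, h]
    · have : ¬ ((-1 : ℝ) = 1) := by norm_num
      simp [ht, h, this]
  set w := W t with hw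
  have hwj : w = ∑ j, (s j : ℂ) • q j := by
    rw [hw, hW]
    exact Finset.sum_congr rfl (fun j _ => by rw [hts j])
  have hwA : w ∈ A := by
    rw [hwj]
    exact A.sum_mem (fun j _ => A.smul_mem (hq.mem j) _)
  have hws : IsSelfAdjoint w := by
    rw [hwj, isSelfAdjoint_iff, star_sum]
    exact Finset.sum_congr rfl (fun j _ => (real_smul_sa (s j) (hq.proj j).isSelfAdjoint).star_eq)
  have hqw : ∀ j, q j * w = (s j : ℂ) • q j := by
    intro j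
    rw [hwj, Finset.mul_sum, Finset.sum_eq_single j]
    · rw [mul_smul_comm, (hq.proj j).isIdempotentElem.eq]
    · intro k _ hk
      rw [mul_smul_comm, hq.orth j k (Ne.symm hk), smul_zero]
    · intro h
      exact absurd (Finset.mem_univ j) h
  have hww : w * w = 1 := by
    have h0 : w * w = (∑ j, (s j : ℂ) • q j) * w := by rw [← hwj]
    rw [h0, Finset.sum_mul, ← hq.sum]
    refine Finset.sum_congr rfl (fun j _ => ?_)
    rw [smul_mul_assoc, hqw, smul_smul]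
    have : (s j : ℂ) * (s j : ℂ) = 1 := by
      rcases hs j with h | h <;> simp [h]
    rw [this, one_smul]
  have hwξ : ‖w ξ‖ = 1 := by rw [norm_w hws hww, hξ]
  have q1 := hquad ξ hξ (hgF ξ (Finset.mem_insert_self _ _))
  have q2 := hquad (w ξ) hwξ (hgF (w ξ) (Finset.mem_insert_of_mem
    (Finset.mem_image_of_mem (fun t => W t ξ) (Finset.mem_univ t))))
  have haw : ⟪w ξ, a (w ξ)⟫ = ⟪ξ, a ξ⟫ := by
    rw [sa_inner hws]
    have h1 : w (a (w ξ)) = ((w * a) * w) ξ := rfl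
    rw [h1, comm_of_ms hA hwA ha, mul_assoc, hww, mul_one]
  have hre1 : (⟪ξ, y ξ⟫).re = 2 * ∑ i, ‖⟪ξ, p i ξ⟫‖ ^ 2 - 1 - (⟪ξ, a ξ⟫).re := by
    rw [hy, sub_apply, inner_sub_right, quad_pinch hp ξ hξ, hξ, Complex.sub_re,
      Complex.ofReal_re]
    ring
  have hre2 : (⟪w ξ, y (w ξ)⟫).re = 2 * ∑ i, ‖⟪ξ, p i (w ξ)⟫‖ ^ 2 - 1 - (⟪ξ, a ξ⟫).re := by
    rw [hy, sub_apply, inner_sub_right, quad_pinch hp ξ hξ, hwξ, haw, Complex.sub_re,
      Complex.ofReal_re]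
    ring
  -- first sum
  have s1 : 1 / (r : ℝ) ≤ ∑ i, ‖⟪ξ, p i ξ⟫‖ ^ 2 := by
    have h1 : ∀ i, ‖⟪ξ, p i ξ⟫‖ = ‖p i ξ‖ ^ 2 := by
      intro i
      rw [← proj_norm_sq (hp.proj i), norm_pow, Complex.norm_real, norm_norm]
    have h2 : (∑ i, ‖⟪ξ, p i ξ⟫‖) ^ 2 ≤ r * ∑ i, ‖⟪ξ, p i ξ⟫‖ ^ 2 := by
      have := sq_sum_le_card_mul_sum_sq (s := Finset.univ) (f := fun i => ‖⟪ξ, p i ξ⟫‖)
      simpa using this
    have h3 : ∑ i, ‖⟪ξ, p i ξ⟫‖ = 1 := by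
      rw [Finset.sum_congr rfl (fun i _ => h1 i), sum_norm_sq hp, hξ, one_pow]
    rw [h3, one_pow] at h2
    rw [div_le_iff₀ hrpos]
    linarith
  -- second sum
  have s2 : ∑ i, ‖⟪ξ, p i (w ξ)⟫‖ ^ 2 ≤ η := by
    have h1 : ∀ i, ⟪ξ, p i (w ξ)⟫ = ∑ j, (s j : ℂ) * ⟪ξ, p i (q j ξ)⟫ := by
      intro i
      rw [hwj, sum_apply, map_sum, inner_sum]
      refine Finset.sum_congr rfl (fun j _ => ?_)
      rw [smul_apply, map_smul, inner_smul_right]
    have h2 : ∑ i, ‖⟪ξ, p i (w ξ)⟫‖ ^ 2 ≤ ∑ i, ∑ j, ‖⟪ξ, p i (q j ξ)⟫‖ ^ 2 := by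
      have h3 : ∑ i, ‖⟪ξ, p i (w ξ)⟫‖ ^ 2 =
          ∑ i, ‖∑ j, (s j : ℂ) * ⟪ξ, p i (q j ξ)⟫‖ ^ 2 :=
        Finset.sum_congr rfl (fun i _ => by rw [h1 i])
      rw [h3]
      simpa using hsum
    have h4 : ∀ i j, ‖⟪ξ, p i (q j ξ)⟫‖ ^ 2 ≤ η ^ 2 * ‖p i (q j ξ)‖ ^ 2 := by
      intro i j
      have c1 : p i * q j = q j * p i := comm_of_ms hA (hp.mem i) (hq.mem j)
      have c2 : p i (q j ξ) = q j (p i (q j ξ)) := by
        have : q j (p i (q j ξ)) = (q j * p i * q j) ξ := rfl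
        rw [this, ← c1, mul_assoc, (hq.proj j).isIdempotentElem.eq]
        rfl
      have c3 : ⟪ξ, p i (q j ξ)⟫ = ⟪q j ξ, p i (q j ξ)⟫ := by
        rw [sa_inner (hq.proj j).isSelfAdjoint, ← c2]
      rw [c3, ← mul_pow]
      refine pow_le_pow_left₀ (norm_nonneg _) ?_ 2
      exact (norm_inner_le_norm _ _).trans (mul_le_mul_of_nonneg_right (hqf j) (norm_nonneg _))
    have h5 : ∑ i, ∑ j, ‖⟪ξ, p i (q j ξ)⟫‖ ^ 2 ≤ η ^ 2 := by
      refine (Finset.sum_le_sum (fun i _ => Finset.sum_le_sum (fun j _ => h4 i j))).trans ?_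
      rw [Finset.sum_comm]
      have h6 : ∀ j, ∑ i, η ^ 2 * ‖p i (q j ξ)‖ ^ 2 = η ^ 2 * ‖q j ξ‖ ^ 2 := by
        intro j
        rw [← Finset.mul_sum, sum_norm_sq hp]
      rw [Finset.sum_congr rfl (fun j _ => h6 j), ← Finset.mul_sum, sum_norm_sq hq, hξ]
      simp
    have h7 : η ^ 2 ≤ η := by nlinarith
    linarith
  have r1 := (abs_le.1 ((Complex.abs_re_le_norm _).trans q1)).2
  have r2 := (abs_le.1 ((Complex.abs_re_le_norm _).trans q2)).1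
  rw [hre1] at r1
  rw [hre2] at r2
  linarith

end Vale.Agent.P078.LOWm
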