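import Vale.Agent.P078.Mods

/-! P078, module MAIN. -/

namespace Vale.Agent.P078.MAINm

variable {H : Type*} [NormedAddCommGroup H] [InnerProductSpace ℂ H] [CompleteSpace H]

theorem main_proof [Nontrivial H] (A : StarSubalgebra ℂ (H →L[ℂ] H)) (hU : UPP A)
    (hL : LOW A) : MAIN A := by
  intro ε hε hε1
  have hc1 : 1 ≤ ⌈1 / ε⌉₊ := Nat.one_le_ceil_iff.2 (by positivity)
  apply le_antisymm
  · refine sInf_le ⟨⌈1 / ε⌉₊, hc1, rfl, fun x _ hx => hU x hx ε _ hε hc1 ?_⟩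
    have h1 : (1 : ℝ) / ε ≤ (⌈1 / ε⌉₊ : ℝ) := Nat.le_ceil _
    have h2 : (0 : ℝ) < (⌈1 / ε⌉₊ : ℝ) := by exact_mod_cast hc1
    rw [div_le_iff₀ h2]
    rw [div_le_iff₀ hε] at h1
    linarith
  · refine le_sInf ?_
    rintro n ⟨r, hr, rfl, h⟩
    obtain ⟨v, hv⟩ := exists_ne (0 : H)
    have hvn : 0 < ‖v‖ := norm_pos_iff.2 hv
    set ξ : H := ((‖v‖⁻¹ : ℝ) : ℂ) • v with hξ
    have hξ1 : ‖ξ‖ = 1 := by
      rw [hξ, norm_smul, Complex.norm_real, Real.norm_of_nonneg (by positivity)]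
      field_simp
    have hes : IsStarProjection (Submodule.span ℂ {ξ}).starProjection :=
      isStarProjection_starProjection
    have hsa : IsSelfAdjoint ((2 : ℂ) • (Submodule.span ℂ {ξ}).starProjection - 1) := by
      refine IsSelfAdjoint.sub ?_ (IsSelfAdjoint.one _)
      rw [isSelfAdjoint_iff, star_smul, hes.isSelfAdjoint.star_eq]
      simp
    have hmem : (2 : ℂ) • (Submodule.span ℂ {ξ}).starProjection - 1 ∈ allOps H := by
      change _ ∈ (⊤ : StarSubalgebra ℂ (H →L[ℂ] H))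
      exact StarSubalgebra.mem_top
    have h1 := hL ξ ε r hξ1 hε hr (h _ hmem hsa)
    have hrpos : (0 : ℝ) < r := by exact_mod_cast hr
    have h2 : 1 / ε ≤ (r : ℝ) := by
      rw [div_le_iff₀ hrpos] at h1
      rw [div_le_iff₀ hε]
      linarith
    have h3 : ⌈1 / ε⌉₊ ≤ r := Nat.ceil_le.2 h2
    exact_mod_cast h3

end Vale.Agent.P078.MAINm
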