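import Vale.Agent.P078.Defs

/-!
P078, interface (helper23).  Fixed Hilbert space `H`, star-subalgebra `A` of the bounded operators
with `A' = A` (`Ms A`) and without minimal projections (`NoMinimal A`).
Plan and full proofs: notes/P078_plan.md.
-/

namespace Vale.Agent.P078

open scoped ComplexInnerProductSpace

universe u

variable {H : Type*} [NormedAddCommGroup H] [InnerProductSpace ℂ H] [CompleteSpace H]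

/-- `A' = A` -/
def Ms (A : StarSubalgebra ℂ (H →L[ℂ] H)) : Prop :=
  ∀ x : H →L[ℂ] H, x ∈ A ↔ ∀ a ∈ A, a * x = x * a

/-- `q''` refines `q` along `σ` -/
def Finer {n m : ℕ} (q : Fin n → H →L[ℂ] H) (q' : Fin m → H →L[ℂ] H) (σ : Fin m → Fin n) :
    Prop := ∀ i, q' i * q (σ i) = q' i

/-- LIT: the literal definition gives `A' = A`. -/
def LIT (A : StarSubalgebra ℂ (H →L[ℂ] H)) : Prop := IsMasa (allOps H) A → Ms A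

/-- PROJ: projections onto closed invariant subspaces belong to `A`. -/
def PROJ (A : StarSubalgebra ℂ (H →L[ℂ] H)) : Prop :=
  ∀ (K : Submodule ℂ H) [K.HasOrthogonalProjection], (∀ a ∈ A, ∀ v ∈ K, a v ∈ K) →
    K.starProjection ∈ A

/-- SPEC: every element of `A` is a norm limit of simple elements. -/
def SPEC (A : StarSubalgebra ℂ (H →L[ℂ] H)) : Prop :=
  ∀ b ∈ A, ∀ η : ℝ, 0 < η → ∃ (N : ℕ) (q : Fin N → H →L[ℂ] H) (β : Fin N → ℂ),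
    IsPartition A q ∧ ‖b - ∑ j, β j • q j‖ ≤ η

/-- FINE: partitions which are fine for one vector. -/
def FINE (A : StarSubalgebra ℂ (H →L[ℂ] H)) : Prop :=
  ∀ (v : H) (η : ℝ), 0 < η → ∃ (N : ℕ) (q : Fin N → H →L[ℂ] H),
    IsPartition A q ∧ ∀ j, ‖q j v‖ ≤ η

/-- REF: common refinements. -/
def REF (A : StarSubalgebra ℂ (H →L[ℂ] H)) : Prop :=
  ∀ (n m : ℕ) (q : Fin n → H →L[ℂ] H) (q' : Fin m → H →L[ℂ] H), IsPartition A q →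
    IsPartition A q' → ∃ (N : ℕ) (s : Fin N → H →L[ℂ] H) (σ : Fin N → Fin n)
      (τ : Fin N → Fin m), IsPartition A s ∧ Finer q s σ ∧ Finer q' s τ

/-- CYC: a common cyclic vector. -/
def CYC (A : StarSubalgebra ℂ (H →L[ℂ] H)) : Prop :=
  ∀ F : Finset H, ∃ ζ : H, ∀ v ∈ F, ∀ η : ℝ, 0 < η → ∃ b ∈ A, ‖v - b ζ‖ ≤ η

/-- QQ: fine partitions on which all vectors of `F` are nearly multiples of one vector. -/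
def QQ (A : StarSubalgebra ℂ (H →L[ℂ] H)) : Prop :=
  ∀ (F : Finset H) (η : ℝ), 0 < η → ∃ (N : ℕ) (q : Fin N → H →L[ℂ] H) (ζ : H)
    (β : H → Fin N → ℂ), IsPartition A q ∧
      (∀ v ∈ F, ‖v - ∑ j, β v j • q j ζ‖ ≤ η) ∧ ∀ v ∈ F, ∀ j, ‖q j v‖ ≤ η

/-- BLK: the block diagonal part of `x` is weakly close to an element of `A`. -/
def BLK (A : StarSubalgebra ℂ (H →L[ℂ] H)) : Prop :=
  ∀ (x : H →L[ℂ] H), IsSelfAdjoint x → ∀ (F : Finset H) (η : ℝ), 0 < η →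
    ∃ (N : ℕ) (q : Fin N → H →L[ℂ] H) (f : H →L[ℂ] H), IsPartition A q ∧ f ∈ A ∧
      IsSelfAdjoint f ∧ ‖f‖ ≤ ‖x‖ ∧ (∀ v ∈ F, ∀ j, ‖q j v‖ ≤ η) ∧
      ∀ v ∈ F, ∀ v' ∈ F, ‖∑ j, ⟪q j v', x (q j v)⟫ - ⟪v', f v⟫‖ ≤ η

/-- BND: the two square sums. -/
def BND (A : StarSubalgebra ℂ (H →L[ℂ] H)) : Prop :=
  ∀ (N : ℕ) (q : Fin N → H →L[ℂ] H) (x : H →L[ℂ] H) (v v' : H) (η : ℝ), IsPartition A q →
    0 ≤ η → (∀ j, ‖q j v'‖ ≤ η) →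
    (∑ j, ∑ k, ‖⟪q j v', x (q k v)⟫‖ ^ 2 ≤ η ^ 2 * ‖x‖ ^ 2 * ‖v‖ ^ 2) ∧
      ∑ j, ‖⟪v, q j v'⟫‖ ^ 2 ≤ η ^ 2 * ‖v‖ ^ 2

/-- COL: a good colouring (second moment method). -/
def COL : Prop := ∀ (κ : Type u) [Fintype κ] (N r : ℕ) (m : κ → Fin N → Fin N → ℂ), 1 ≤ r →
  ∃ c : Fin N → Fin r,
    ∑ t, ‖∑ j, ∑ k, (if j = k then 0 else ((if c j = c k then 1 else 0) - 1 / (r : ℂ))) *
        m t j k‖ ^ 2 ≤ 2 * ∑ t, ∑ j, ∑ k, ‖m t j k‖ ^ 2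

/-- SGN: good signs (second moment method). -/
def SGN : Prop := ∀ (κ ρ : Type u) [Fintype κ] [Fintype ρ] (N : ℕ) (z : κ → Fin N → ℂ)
  (m : ρ → Fin N → Fin N → ℂ), ∃ s : Fin N → ℝ, (∀ j, s j = 1 ∨ s j = -1) ∧
    ∑ t, ‖∑ j, (s j : ℂ) * z t j‖ ^ 2 +
      ∑ t, ‖∑ j, ∑ k, (if j = k then 0 else (s j : ℂ) * (s k : ℂ)) * m t j k‖ ^ 2 ≤
    ∑ t, ∑ j, ‖z t j‖ ^ 2 + 2 * ∑ t, ∑ j, ∑ k, ‖m t j k‖ ^ 2

/-- PAV: a partition with `r` pieces for which the pinching of `x` is weakly close to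
`(1/r) x + (1-1/r) f`. -/
def PAV (A : StarSubalgebra ℂ (H →L[ℂ] H)) : Prop :=
  ∀ (x : H →L[ℂ] H), IsSelfAdjoint x → ∀ (F : Finset H) (η : ℝ), 0 < η → ∀ r : ℕ, 1 ≤ r →
    ∃ (p : Fin r → H →L[ℂ] H) (f : H →L[ℂ] H), IsPartition A p ∧ f ∈ A ∧
      IsSelfAdjoint f ∧ ‖f‖ ≤ ‖x‖ ∧
      ∀ v ∈ F, ∀ v' ∈ F, ‖⟪v', pinch p x v⟫ - (1 / (r : ℂ)) * ⟪v', x v⟫ -
        (1 - 1 / (r : ℂ)) * ⟪v', f v⟫‖ ≤ η

/-- OSC: an oscillating unitary of `A`. -/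
def OSC (A : StarSubalgebra ℂ (H →L[ℂ] H)) : Prop :=
  ∀ (x : H →L[ℂ] H), IsSelfAdjoint x → ∀ (F : Finset H) (η : ℝ), 0 < η →
    ∃ (w f : H →L[ℂ] H), w ∈ A ∧ IsSelfAdjoint w ∧ w * w = 1 ∧ f ∈ A ∧ IsSelfAdjoint f ∧
      ‖f‖ ≤ ‖x‖ ∧ ∀ v ∈ F, ∀ v' ∈ F, ‖⟪w v', x (w v)⟫ - ⟪v', f v⟫‖ ≤ η ∧
        ‖⟪v', w v⟫‖ ≤ η ∧ ‖⟪v', x (w v)⟫‖ ≤ η ∧ ‖⟪v', f (w v)⟫‖ ≤ η

/-- UPP: the upper bound. -/
def UPP (A : StarSubalgebra ℂ (H →L[ℂ] H)) : Prop :=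
  ∀ (x : H →L[ℂ] H), IsSelfAdjoint x → ∀ (ε : ℝ) (r : ℕ), 0 < ε → 1 ≤ r → 1 / (r : ℝ) ≤ ε →
    SoPavable (allOps H) A x ε r

/-- LOW: the lower bound. -/
def LOW (A : StarSubalgebra ℂ (H →L[ℂ] H)) : Prop :=
  ∀ (ξ : H) (ε : ℝ) (r : ℕ), ‖ξ‖ = 1 → 0 < ε → 1 ≤ r →
    SoPavable (allOps H) A ((2 : ℂ) • (ℂ ∙ ξ).starProjection - 1) ε r → 1 / (r : ℝ) ≤ ε

/-- MAIN -/
def MAIN (A : StarSubalgebra ℂ (H →L[ℂ] H)) : Prop :=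
  ∀ ε : ℝ, 0 < ε → ε < 1 → soNumber (allOps H) A ε = ((⌈1 / ε⌉₊ : ℕ) : ℕ∞)

end Vale.Agent.P078
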