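import Vale.Agent.P078.Mods

/-! P078: second moments (used for COL and SGN). -/

set_option linter.unusedSectionVars false

namespace Vale.Agent.P078.Mom

open Finset

theorem expand_sq {T P : Type*} [Fintype T] [Fintype P] (a : P → T → ℝ) (z : P → ℂ) :
    ∑ t, ‖∑ p, (a p t : ℂ) * z p‖ ^ 2 =
      ∑ p, ∑ p', (∑ t, a p t * a p' t) * (z p * (starRingEnd ℂ) (z p')).re := by
  have h1 : ∀ t, ‖∑ p, (a p t : ℂ) * z p‖ ^ 2 =
      ∑ p, ∑ p', (a p t * a p' t) * (z p * (starRingEnd ℂ) (z p')).re := by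
    intro t
    have e1 : ((‖∑ p, (a p t : ℂ) * z p‖ ^ 2 : ℝ) : ℂ) =
        (∑ p, (a p t : ℂ) * z p) * (starRingEnd ℂ) (∑ p, (a p t : ℂ) * z p) := by
      rw [Complex.mul_conj, Complex.normSq_eq_norm_sq]
    have e2 : ‖∑ p, (a p t : ℂ) * z p‖ ^ 2 =
        ((∑ p, (a p t : ℂ) * z p) * (starRingEnd ℂ) (∑ p, (a p t : ℂ) * z p)).re := by
      rw [← e1, Complex.ofReal_re]
    rw [e2, map_sum, Finset.sum_mul_sum, Complex.re_sum]
    refine Finset.sum_congr rfl (fun p _ => ?_)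
    rw [Complex.re_sum]
    refine Finset.sum_congr rfl (fun p' _ => ?_)
    rw [map_mul, Complex.conj_ofReal]
    have e3 : (a p t : ℂ) * z p * ((a p' t : ℂ) * (starRingEnd ℂ) (z p')) =
        ((a p t * a p' t : ℝ) : ℂ) * (z p * (starRingEnd ℂ) (z p')) := by
      push_cast
      ring
    rw [e3, Complex.re_ofReal_mul]
  rw [Finset.sum_congr rfl (fun t _ => h1 t), Finset.sum_comm]
  refine Finset.sum_congr rfl (fun p _ => ?_)
  rw [Finset.sum_comm]
  refine Finset.sum_congr rfl (fun p' _ => ?_)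
  rw [Finset.sum_mul]

theorem re_mul_conj_le (z w : ℂ) : |(z * (starRingEnd ℂ) w).re| ≤ (‖z‖ ^ 2 + ‖w‖ ^ 2) / 2 := by
  refine (Complex.abs_re_le_norm _).trans ?_
  rw [norm_mul, RCLike.norm_conj]
  nlinarith [sq_nonneg (‖z‖ - ‖w‖)]

section
variable {B : Type} [Fintype B] [DecidableEq B] {N : ℕ}

/-- the random coefficient of a pair -/
def al (α : B → B → ℝ) (p : Fin N × Fin N) (c : Fin N → B) : ℝ :=
  if p.1 = p.2 then 0 else α (c p.1) (c p.2)

theorem al_swap (α : B → B → ℝ) (hs : ∀ b b', α b b' = α b' b) (p : Fin N × Fin N)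
    (c : Fin N → B) : al α p.swap c = al α p c := by
  unfold al
  by_cases h : p.1 = p.2
  · rw [if_pos h, if_pos (show p.swap.1 = p.swap.2 from h.symm)]
  · rw [if_neg h, if_neg (show ¬ p.swap.1 = p.swap.2 from fun e => h e.symm)]
    exact hs _ _

theorem split_sum (j : Fin N) (F : (Fin N → B) → ℝ) :
    ∑ c, F c = ∑ g : {i // i ≠ j} → B, ∑ b : B, F ((Equiv.funSplitAt j B).symm (b, g)) := by
  rw [← Equiv.sum_comp (Equiv.funSplitAt j B).symm F, Fintype.sum_prod_type, Finset.sum_comm]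

theorem fs_self (j : Fin N) (b : B) (g : {i // i ≠ j} → B) :
    (Equiv.funSplitAt j B).symm (b, g) j = b := by
  simp [Equiv.funSplitAt, Equiv.piSplitAt]

theorem fs_ne (j : Fin N) (b : B) (g : {i // i ≠ j} → B) (k : Fin N) (hk : k ≠ j) :
    (Equiv.funSplitAt j B).symm (b, g) k = g ⟨k, hk⟩ := by
  simp [Equiv.funSplitAt, Equiv.piSplitAt, hk]

theorem G_zero (α : B → B → ℝ) (h0 : ∀ b', ∑ b, α b b' = 0) (p p' : Fin N × Fin N)
    (hp : p.1 ≠ p.2) (h1 : p'.1 ≠ p.1) (h2 : p'.2 ≠ p.1) :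
    ∑ c, al α p c * al α p' c = 0 := by
  rw [split_sum p.1]
  refine Finset.sum_eq_zero (fun g _ => ?_)
  have e1 : ∀ b, al α p ((Equiv.funSplitAt p.1 B).symm (b, g)) = α b (g ⟨p.2, Ne.symm hp⟩) := by
    intro b
    unfold al
    rw [if_neg hp, fs_self, fs_ne p.1 b g p.2 (Ne.symm hp)]
  have e2 : ∀ b b', al α p' ((Equiv.funSplitAt p.1 B).symm (b, g)) =
      al α p' ((Equiv.funSplitAt p.1 B).symm (b', g)) := by
    intro b b'
    unfold al
    rw [fs_ne p.1 b g p'.1 h1, fs_ne p.1 b g p'.2 h2, fs_ne p.1 b' g p'.1 h1,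
      fs_ne p.1 b' g p'.2 h2]
  by_cases hB : Nonempty B
  · obtain ⟨b0⟩ := hB
    have e3 : ∀ b, al α p ((Equiv.funSplitAt p.1 B).symm (b, g)) *
        al α p' ((Equiv.funSplitAt p.1 B).symm (b, g)) =
        α b (g ⟨p.2, Ne.symm hp⟩) * al α p' ((Equiv.funSplitAt p.1 B).symm (b0, g)) := by
      intro b
      rw [e1, e2 b b0]
    rw [Finset.sum_congr rfl (fun b _ => e3 b), ← Finset.sum_mul, h0, zero_mul]
  · have : IsEmpty B := not_nonempty_iff.1 hB
    simp

theorem G_zero' (α : B → B → ℝ) (hs : ∀ b b', α b b' = α b' b) (h0 : ∀ b', ∑ b, α b b' = 0)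
    (p p' : Fin N × Fin N) (h1 : p' ≠ p) (h2 : p' ≠ p.swap) :
    ∑ c, al α p c * al α p' c = 0 := by
  by_cases hp : p.1 = p.2
  · refine Finset.sum_eq_zero (fun c _ => ?_)
    have : al α p c = 0 := if_pos hp
    rw [this, zero_mul]
  by_cases hp' : p'.1 = p'.2
  · refine Finset.sum_eq_zero (fun c _ => ?_)
    have : al α p' c = 0 := if_pos hp'
    rw [this, mul_zero]
  by_cases h3 : p'.1 ≠ p.1 ∧ p'.2 ≠ p.1
  · exact G_zero α h0 p p' hp h3.1 h3.2
  · have h4 : p'.1 ≠ p.swap.1 ∧ p'.2 ≠ p.swap.1 := by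
      obtain ⟨a, b⟩ := p
      obtain ⟨a', b'⟩ := p'
      simp only [Prod.swap_prod_mk, ne_eq, Prod.mk.injEq, not_and, not_not] at *
      constructor
      · intro e
        subst e
        by_cases e' : b' = a
        · exact h2 rfl e'
        · by_cases e'' : a' = a
          · exact hp e''.symm
          · exact e' (h3 e'')
      · intro e
        subst e
        by_cases e' : a' = a
        · exact h1 e' rfl
        · have := h3 e'
          exact hp this.symm
    have h5 := G_zero α h0 p.swap p' (fun e => hp e.symm) h4.1 h4.2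
    rw [← h5]
    exact Finset.sum_congr rfl (fun c _ => by rw [al_swap α hs])

theorem quad_moment (α : B → B → ℝ) (hs : ∀ b b', α b b' = α b' b)
    (h0 : ∀ b', ∑ b, α b b' = 0) (h1 : ∀ b b', |α b b'| ≤ 1) (m : Fin N × Fin N → ℂ) :
    ∑ c : Fin N → B, ‖∑ p, (al α p c : ℂ) * m p‖ ^ 2 ≤
      (Fintype.card (Fin N → B) : ℝ) * (2 * ∑ p, ‖m p‖ ^ 2) := by
  rw [expand_sq (T := Fin N → B)]
  have hal : ∀ (p : Fin N × Fin N) (c : Fin N → B), |al α p c| ≤ 1 := by
    intro p c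
    unfold al
    split_ifs
    · simp
    · exact h1 _ _
  have hG : ∀ p p' : Fin N × Fin N, |∑ c : Fin N → B, al α p c * al α p' c| ≤
      (Fintype.card (Fin N → B) : ℝ) := by
    intro p p'
    refine (Finset.abs_sum_le_sum_abs _ _).trans ?_
    refine (Finset.sum_le_card_nsmul _ _ 1 (fun c _ => ?_)).trans ?_
    · rw [abs_mul]
      nlinarith [hal p c, hal p' c, abs_nonneg (al α p c), abs_nonneg (al α p' c)]
    · simp
  set C := (Fintype.card (Fin N → B) : ℝ) with hC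
  have hC0 : 0 ≤ C := by positivity
  have h2 : ∀ p : Fin N × Fin N, ∑ p', (∑ c : Fin N → B, al α p c * al α p' c) *
      (m p * (starRingEnd ℂ) (m p')).re ≤
      C * ‖m p‖ ^ 2 + C * ((‖m p‖ ^ 2 + ‖m p.swap‖ ^ 2) / 2) := by
    intro p
    have k1 : ∀ p' : Fin N × Fin N, (∑ c : Fin N → B, al α p c * al α p' c) *
        (m p * (starRingEnd ℂ) (m p')).re ≤ C * ((‖m p‖ ^ 2 + ‖m p'‖ ^ 2) / 2) := by
      intro p'
      refine (le_abs_self _).trans ?_
      rw [abs_mul]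
      exact mul_le_mul (hG p p') (re_mul_conj_le _ _) (abs_nonneg _) hC0
    have k2 : ∑ p' : Fin N × Fin N, (∑ c : Fin N → B, al α p c * al α p' c) *
        (m p * (starRingEnd ℂ) (m p')).re =
        ∑ p' ∈ ({p, p.swap} : Finset (Fin N × Fin N)),
          (∑ c : Fin N → B, al α p c * al α p' c) * (m p * (starRingEnd ℂ) (m p')).re := by
      symm
      refine Finset.sum_subset (Finset.subset_univ _) (fun p' _ hp' => ?_)
      rw [Finset.mem_insert, Finset.mem_singleton, not_or] at hp'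
      rw [G_zero' α hs h0 p p' hp'.1 hp'.2, zero_mul]
    rw [k2]
    by_cases hpp : p = p.swap
    · rw [← hpp, Finset.pair_eq_singleton, Finset.sum_singleton]
      have := k1 p
      have h9 : 0 ≤ C * ‖m p‖ ^ 2 := by positivity
      linarith
    · rw [Finset.sum_pair hpp]
      have a1 := k1 p
      have a2 := k1 p.swap
      have a3 : C * ((‖m p‖ ^ 2 + ‖m p‖ ^ 2) / 2) = C * ‖m p‖ ^ 2 := by ring
      linarith
  refine (Finset.sum_le_sum (fun p _ => h2 p)).trans ?_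
  have h3 : ∑ p : Fin N × Fin N, ‖m p.swap‖ ^ 2 = ∑ p, ‖m p‖ ^ 2 :=
    Equiv.sum_comp (Equiv.prodComm (Fin N) (Fin N)) (fun p => ‖m p‖ ^ 2)
  rw [Finset.sum_add_distrib, ← Finset.mul_sum, ← Finset.mul_sum, ← Finset.sum_div,
    Finset.sum_add_distrib, h3]
  apply le_of_eq
  ring

end

end Vale.Agent.P078.Mom
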