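import Vale.Agent.P078.Mods

/-!
P078, OSC: an oscillating unitary of `A`.
-/

namespace Vale.Agent.P078.OSCm

open scoped ComplexInnerProductSpace
open Finset

variable {H : Type*} [NormedAddCommGroup H] [InnerProductSpace ℂ H] [CompleteSpace H]

lemma sa_inner {a : H →L[ℂ] H} (h : IsSelfAdjoint a) (u v : H) : ⟪a u, v⟫ = ⟪u, a v⟫ :=
  (ContinuousLinearMap.isSelfAdjoint_iff_isSymmetric.1 h) u v

lemma mul_q {A : StarSubalgebra ℂ (H →L[ℂ] H)} {N : ℕ} {q : Fin N → H →L[ℂ] H}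
    (h : IsPartition A q) (j k : Fin N) : q j * q k = if j = k then q j else 0 := by
  by_cases hjk : j = k
  · subst hjk
    simp only [if_true]
    exact (h.proj j).isIdempotentElem
  · simp only [if_neg hjk]
    exact h.orth j k hjk

/-- the unitary with signs `s` -/
noncomputable def ww {N : ℕ} (q : Fin N → H →L[ℂ] H) (s : Fin N → ℝ) : H →L[ℂ] H :=
  ∑ j, (s j : ℂ) • q j

lemma ww_apply {N : ℕ} (q : Fin N → H →L[ℂ] H) (s : Fin N → ℝ) (v : H) :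
    ww q s v = ∑ j, (s j : ℂ) • q j v := by
  unfold ww
  rw [_root_.sum_apply]
  rfl

lemma ww_mem {A : StarSubalgebra ℂ (H →L[ℂ] H)} {N : ℕ} {q : Fin N → H →L[ℂ] H}
    (h : IsPartition A q) (s : Fin N → ℝ) : ww q s ∈ A := by
  unfold ww
  exact sum_mem (fun j _ => A.smul_mem (h.mem j) _)

lemma ww_sa {A : StarSubalgebra ℂ (H →L[ℂ] H)} {N : ℕ} {q : Fin N → H →L[ℂ] H}
    (h : IsPartition A q) (s : Fin N → ℝ) : IsSelfAdjoint (ww q s) := by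
  unfold ww
  rw [IsSelfAdjoint, star_sum]
  refine sum_congr rfl (fun j _ => ?_)
  rw [star_smul, (h.proj j).isSelfAdjoint]
  congr 1
  exact Complex.conj_ofReal _

lemma ww_sq {A : StarSubalgebra ℂ (H →L[ℂ] H)} {N : ℕ} {q : Fin N → H →L[ℂ] H}
    (h : IsPartition A q) (s : Fin N → ℝ) (hs : ∀ j, s j = 1 ∨ s j = -1) :
    ww q s * ww q s = 1 := by
  unfold ww
  rw [sum_mul_sum, ← h.sum]
  refine sum_congr rfl (fun j _ => ?_)
  have : ∀ k, (s j : ℂ) • q j * (s k : ℂ) • q k =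
      if j = k then ((s j : ℂ) * (s k : ℂ)) • q j else 0 := by
    intro k
    rw [smul_mul_smul_comm, mul_q h]
    split_ifs <;> simp
  simp only [this]
  rw [sum_ite_eq]
  simp only [mem_univ, if_true]
  rcases hs j with h1 | h1 <;> rw [h1] <;> simp

lemma ww_inner {N : ℕ} (q : Fin N → H →L[ℂ] H) (s : Fin N → ℝ) (u v : H) :
    ⟪u, ww q s v⟫ = ∑ j, (s j : ℂ) * ⟪u, q j v⟫ := by
  rw [ww_apply, inner_sum]
  exact sum_congr rfl (fun j _ => inner_smul_right _ _ _)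

lemma ww_inner2 {N : ℕ} (q : Fin N → H →L[ℂ] H) (s : Fin N → ℝ) (x : H →L[ℂ] H) (v v' : H) :
    ⟪ww q s v', x (ww q s v)⟫ =
      ∑ j, ∑ k, (s j : ℂ) * (s k : ℂ) * ⟪q j v', x (q k v)⟫ := by
  rw [ww_apply, ww_apply, sum_inner]
  refine sum_congr rfl (fun j _ => ?_)
  rw [map_sum, inner_sum]
  refine sum_congr rfl (fun k _ => ?_)
  rw [map_smul, inner_smul_left, inner_smul_right, Complex.conj_ofReal]
  ring

theorem osc_proof (A : StarSubalgebra ℂ (H →L[ℂ] H)) (hB : BLK A) (hN : BND A)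
    (hG : SGN.{0}) : OSC A := by
  intro x hx F η hη
  classical
  set n := F.card with hn
  set e := F.equivFin with he
  set vec : Fin n → H := fun i => ((e.symm i : {y // y ∈ F}) : H) with hvec
  set S : ℝ := ∑ t : Fin n × Fin n, (‖vec t.2‖ ^ 2 + 2 * (‖x‖ ^ 2 * ‖vec t.2‖ ^ 2) +
    2 * (‖x‖ ^ 2 * ‖vec t.1‖ ^ 2)) with hS
  have hS0 : 0 ≤ S := sum_nonneg (fun t _ => by positivity)
  set η' : ℝ := η / (2 * (1 + S)) with hη'
  have hη'0 : 0 < η' := by rw [hη']; positivity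
  have hη'1 : η' ≤ η / 2 := by
    rw [hη']
    apply div_le_div_of_nonneg_left hη.le (by norm_num)
    linarith
  have hη'2 : η' ^ 2 * S ≤ (η / 2) ^ 2 := by
    have h1 : η' * (1 + S) = η / 2 := by
      rw [hη']
      field_simp
    have h2 : η' ^ 2 * S ≤ (η' * (1 + S)) ^ 2 := by
      have : (η' * (1 + S)) ^ 2 = η' ^ 2 * S + η' ^ 2 * (1 + S + S ^ 2) := by ring
      rw [this]
      have : 0 ≤ η' ^ 2 * (1 + S + S ^ 2) := by positivity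
      linarith
    rw [h1] at h2
    exact h2
  obtain ⟨N, q, f, hq, hfA, hf, hfx, hsmall, hdiag⟩ := hB x hx F η' hη'0
  have hmem : ∀ i, vec i ∈ F := fun i => (e.symm i).2
  obtain ⟨s, hs, hc⟩ := hG ((Fin n × Fin n) × Fin 3) (Fin n × Fin n) N
    (fun t j => ⟪(![vec t.1.2, x (vec t.1.2), f (vec t.1.2)] : Fin 3 → H) t.2, q j (vec t.1.1)⟫)
    (fun t j k => ⟪q j (vec t.2), x (q k (vec t.1))⟫)
  have hxv : ∀ v, ‖x v‖ ^ 2 ≤ ‖x‖ ^ 2 * ‖v‖ ^ 2 := by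
    intro v
    rw [← mul_pow]
    exact pow_le_pow_left₀ (norm_nonneg _) (x.le_opNorm v) 2
  have hfv : ∀ v, ‖f v‖ ^ 2 ≤ ‖x‖ ^ 2 * ‖v‖ ^ 2 := by
    intro v
    rw [← mul_pow]
    refine pow_le_pow_left₀ (norm_nonneg _) ((f.le_opNorm v).trans ?_) 2
    exact mul_le_mul_of_nonneg_right hfx (norm_nonneg _)
  have hlin : ∑ t : (Fin n × Fin n) × Fin 3, ∑ j,
      ‖⟪(![vec t.1.2, x (vec t.1.2), f (vec t.1.2)] : Fin 3 → H) t.2, q j (vec t.1.1)⟫‖ ^ 2 ≤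
      ∑ t : Fin n × Fin n, η' ^ 2 * (‖vec t.2‖ ^ 2 + 2 * (‖x‖ ^ 2 * ‖vec t.2‖ ^ 2)) := by
    rw [Fintype.sum_prod_type]
    refine sum_le_sum (fun t _ => ?_)
    rw [Fin.sum_univ_three]
    have b0 := (hN N q x (vec t.2) (vec t.1) η' hq hη'0.le (hsmall _ (hmem _))).2
    have b1 := (hN N q x (x (vec t.2)) (vec t.1) η' hq hη'0.le (hsmall _ (hmem _))).2
    have b2 := (hN N q x (f (vec t.2)) (vec t.1) η' hq hη'0.le (hsmall _ (hmem _))).2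
    have c1 : η' ^ 2 * ‖x (vec t.2)‖ ^ 2 ≤ η' ^ 2 * (‖x‖ ^ 2 * ‖vec t.2‖ ^ 2) :=
      mul_le_mul_of_nonneg_left (hxv _) (by positivity)
    have c2 : η' ^ 2 * ‖f (vec t.2)‖ ^ 2 ≤ η' ^ 2 * (‖x‖ ^ 2 * ‖vec t.2‖ ^ 2) :=
      mul_le_mul_of_nonneg_left (hfv _) (by positivity)
    simp only [Matrix.cons_val_zero, Matrix.cons_val_one, Matrix.cons_val_two,
      Matrix.cons_val, Matrix.head_cons, Matrix.tail_cons] at *
    nlinarith [b0, b1, b2, c1, c2]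
  have hquad : ∑ t : Fin n × Fin n, ∑ j, ∑ k, ‖⟪q j (vec t.2), x (q k (vec t.1))⟫‖ ^ 2 ≤
      ∑ t : Fin n × Fin n, η' ^ 2 * (‖x‖ ^ 2 * ‖vec t.1‖ ^ 2) := by
    refine sum_le_sum (fun t _ => ?_)
    have := (hN N q x (vec t.1) (vec t.2) η' hq hη'0.le (hsmall _ (hmem _))).1
    linarith
  have htot : ∑ t : (Fin n × Fin n) × Fin 3, ‖∑ j, (s j : ℂ) *
      ⟪(![vec t.1.2, x (vec t.1.2), f (vec t.1.2)] : Fin 3 → H) t.2, q j (vec t.1.1)⟫‖ ^ 2 +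
      ∑ t : Fin n × Fin n, ‖∑ j, ∑ k, (if j = k then 0 else (s j : ℂ) * (s k : ℂ)) *
        ⟪q j (vec t.2), x (q k (vec t.1))⟫‖ ^ 2 ≤ (η / 2) ^ 2 := by
    refine hc.trans (le_trans ?_ hη'2)
    have : η' ^ 2 * S = ∑ t : Fin n × Fin n, η' ^ 2 * (‖vec t.2‖ ^ 2 +
        2 * (‖x‖ ^ 2 * ‖vec t.2‖ ^ 2)) +
        2 * ∑ t : Fin n × Fin n, η' ^ 2 * (‖x‖ ^ 2 * ‖vec t.1‖ ^ 2) := by
      rw [hS, mul_sum, mul_sum, ← sum_add_distrib]
      exact sum_congr rfl (fun t _ => by ring)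
    rw [this]
    linarith
  have hA0 : 0 ≤ ∑ t : (Fin n × Fin n) × Fin 3, ‖∑ j, (s j : ℂ) *
      ⟪(![vec t.1.2, x (vec t.1.2), f (vec t.1.2)] : Fin 3 → H) t.2, q j (vec t.1.1)⟫‖ ^ 2 :=
    sum_nonneg (fun t _ => by positivity)
  have hB0 : 0 ≤ ∑ t : Fin n × Fin n, ‖∑ j, ∑ k, (if j = k then 0 else
      (s j : ℂ) * (s k : ℂ)) * ⟪q j (vec t.2), x (q k (vec t.1))⟫‖ ^ 2 :=
    sum_nonneg (fun t _ => by positivity)
  refine ⟨ww q s, f, ww_mem hq s, ww_sa hq s, ww_sq hq s hs, hfA, hf, hfx, ?_⟩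
  intro v hv v' hv'
  have hvi : vec (e ⟨v, hv⟩) = v := by simp [hvec]
  have hvi' : vec (e ⟨v', hv'⟩) = v' := by simp [hvec]
  have hl : ∀ a : Fin 3, ‖∑ j, (s j : ℂ) *
      ⟪(![v', x v', f v'] : Fin 3 → H) a, q j v⟫‖ ≤ η / 2 := by
    intro a
    have h1 := single_le_sum (f := fun t : (Fin n × Fin n) × Fin 3 => ‖∑ j, (s j : ℂ) *
      ⟪(![vec t.1.2, x (vec t.1.2), f (vec t.1.2)] : Fin 3 → H) t.2, q j (vec t.1.1)⟫‖ ^ 2)
      (fun t _ => by positivity) (mem_univ ((e ⟨v, hv⟩, e ⟨v', hv'⟩), a))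
    simp only [hvi, hvi'] at h1
    refine le_of_sq_le_sq ?_ (by positivity)
    linarith
  have hqd : ‖∑ j, ∑ k, (if j = k then 0 else (s j : ℂ) * (s k : ℂ)) *
        ⟪q j v', x (q k v)⟫‖ ≤ η / 2 := by
    have h1 := single_le_sum (f := fun t : Fin n × Fin n => ‖∑ j, ∑ k, (if j = k then 0 else
      (s j : ℂ) * (s k : ℂ)) * ⟪q j (vec t.2), x (q k (vec t.1))⟫‖ ^ 2)
      (fun t _ => by positivity) (mem_univ (e ⟨v, hv⟩, e ⟨v', hv'⟩))
    simp only [hvi, hvi'] at h1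
    refine le_of_sq_le_sq ?_ (by positivity)
    linarith
  have hl0 := hl 0
  have hl1 := hl 1
  have hl2 := hl 2
  simp only [Matrix.cons_val_zero, Matrix.cons_val_one, Matrix.cons_val_two,
    Matrix.cons_val, Matrix.head_cons, Matrix.tail_cons] at hl0 hl1 hl2
  rw [← ww_inner] at hl0 hl1 hl2
  rw [sa_inner hx] at hl1
  rw [sa_inner hf] at hl2
  refine ⟨?_, by linarith, by linarith, by linarith⟩
  have hid : ⟪ww q s v', x (ww q s v)⟫ - ⟪v', f v⟫ =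
      (∑ j, ∑ k, (if j = k then 0 else (s j : ℂ) * (s k : ℂ)) * ⟪q j v', x (q k v)⟫) +
      (∑ j, ⟪q j v', x (q j v)⟫ - ⟪v', f v⟫) := by
    rw [ww_inner2]
    have hj : ∀ j, ∑ k, (if j = k then 0 else (s j : ℂ) * (s k : ℂ)) *
        ⟪q j v', x (q k v)⟫ =
        ∑ k, (s j : ℂ) * (s k : ℂ) * ⟪q j v', x (q k v)⟫ - ⟪q j v', x (q j v)⟫ := by
      intro j
      have h3 : ⟪q j v', x (q j v)⟫ =
          ∑ k, if j = k then (s j : ℂ) * (s k : ℂ) * ⟪q j v', x (q k v)⟫ else 0 := by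
        rw [sum_ite_eq]
        simp only [mem_univ, if_true]
        rcases hs j with h1 | h1 <;> rw [h1] <;> simp
      rw [h3, ← sum_sub_distrib]
      refine sum_congr rfl (fun k _ => ?_)
      by_cases hjk : j = k
      · simp [hjk]
      · simp [hjk]
    simp only [hj]
    rw [sum_sub_distrib]
    ring
  rw [hid]
  calc _ ≤ _ := norm_add_le _ _
    _ ≤ η / 2 + η' := add_le_add hqd (hdiag v hv v' hv')
    _ ≤ η := by linarith

end Vale.Agent.P078.OSCm
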