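import Vale.Agent.P078.Mods

/-!
P078, PAV: a partition with few pieces for which the pinching is weakly close to
`(1/r) x + (1 - 1/r) f`.
-/

namespace Vale.Agent.P078.PAVm

open scoped ComplexInnerProductSpace
open Finset

variable {H : Type*} [NormedAddCommGroup H] [InnerProductSpace ℂ H] [CompleteSpace H]

lemma sa_inner {a : H →L[ℂ] H} (h : IsSelfAdjoint a) (u v : H) : ⟪a u, v⟫ = ⟪u, a v⟫ :=
  (ContinuousLinearMap.isSelfAdjoint_iff_isSymmetric.1 h) u v

/-- merge the pieces of `q` with the same colour -/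
noncomputable def coarse {N r : ℕ} (q : Fin N → H →L[ℂ] H) (c : Fin N → Fin r) (i : Fin r) :
    H →L[ℂ] H := ∑ j ∈ univ.filter (fun j => c j = i), q j

lemma mul_q {A : StarSubalgebra ℂ (H →L[ℂ] H)} {N : ℕ} {q : Fin N → H →L[ℂ] H}
    (h : IsPartition A q) (j k : Fin N) : q j * q k = if j = k then q j else 0 := by
  by_cases hjk : j = k
  · subst hjk
    simp only [if_true]
    exact (h.proj j).isIdempotentElem
  · simp only [if_neg hjk]
    exact h.orth j k hjk

lemma coarse_mul {A : StarSubalgebra ℂ (H →L[ℂ] H)} {N r : ℕ} {q : Fin N → H →L[ℂ] H}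
    (h : IsPartition A q) (c : Fin N → Fin r) (i i' : Fin r) :
    coarse q c i * coarse q c i' = if i = i' then coarse q c i else 0 := by
  unfold coarse
  rw [sum_mul_sum]
  simp only [mul_q h]
  by_cases hi : i = i'
  · subst hi
    simp only [if_true]
    refine sum_congr rfl (fun j hj => ?_)
    rw [sum_ite_eq]
    simp only [hj, if_true]
  · simp only [if_neg hi]
    refine sum_eq_zero (fun j hj => ?_)
    rw [sum_ite_eq]
    have : j ∉ univ.filter (fun j => c j = i') := by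
      intro hj'
      rw [mem_filter] at hj hj'
      exact hi (hj.2.symm.trans hj'.2)
    simp only [this, if_false]

lemma coarse_partition {A : StarSubalgebra ℂ (H →L[ℂ] H)} {N r : ℕ} {q : Fin N → H →L[ℂ] H}
    (h : IsPartition A q) (c : Fin N → Fin r) : IsPartition A (coarse q c) where
  mem i := by
    unfold coarse
    exact sum_mem (fun j _ => h.mem j)
  proj i :=
    { isIdempotentElem := by
        have := coarse_mul h c i i
        simp only [if_true] at this
        exact this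
      isSelfAdjoint := by
        unfold coarse
        rw [IsSelfAdjoint, star_sum]
        exact sum_congr rfl (fun j _ => (h.proj j).isSelfAdjoint) }
  orth i j hij := by
    have := coarse_mul h c i j
    simpa only [if_neg hij] using this
  sum := by
    unfold coarse
    rw [sum_fiberwise]
    exact h.sum

lemma coarse_apply {N r : ℕ} (q : Fin N → H →L[ℂ] H) (c : Fin N → Fin r) (i : Fin r) (v : H) :
    coarse q c i v = ∑ j, if c j = i then q j v else 0 := by
  unfold coarse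
  rw [_root_.sum_apply, sum_filter]

lemma pinch_inner {A : StarSubalgebra ℂ (H →L[ℂ] H)} {N r : ℕ} {q : Fin N → H →L[ℂ] H}
    (h : IsPartition A q) (c : Fin N → Fin r) (x : H →L[ℂ] H) (v v' : H) :
    ⟪v', pinch (coarse q c) x v⟫ =
      ∑ j, ∑ k, (if c j = c k then (1 : ℂ) else 0) * ⟪q j v', x (q k v)⟫ := by
  have hc := coarse_partition h c
  have h1 : ⟪v', pinch (coarse q c) x v⟫ =
      ∑ i, ⟪coarse q c i v', x (coarse q c i v)⟫ := by
    unfold pinch
    rw [_root_.sum_apply, inner_sum]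
    refine sum_congr rfl (fun i _ => ?_)
    rw [sa_inner (hc.proj i).isSelfAdjoint]
    rfl
  rw [h1]
  have h2 : ∀ i, ⟪coarse q c i v', x (coarse q c i v)⟫ =
      ∑ j, ∑ k, (if c j = i then (if c k = i then (1 : ℂ) else 0) else 0) *
        ⟪q j v', x (q k v)⟫ := by
    intro i
    rw [coarse_apply, coarse_apply, sum_inner]
    refine sum_congr rfl (fun j _ => ?_)
    rw [map_sum, inner_sum]
    refine sum_congr rfl (fun k _ => ?_)
    by_cases hj : c j = i <;> by_cases hk : c k = i <;> simp [hj, hk]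
  simp only [h2]
  rw [sum_comm]
  refine sum_congr rfl (fun j _ => ?_)
  rw [sum_comm]
  refine sum_congr rfl (fun k _ => ?_)
  rw [← sum_mul]
  congr 1
  rw [sum_ite_eq]
  simp only [mem_univ, if_true]
  by_cases hjk : c j = c k
  · simp [hjk]
  · have : ¬ c k = c j := fun h => hjk h.symm
    simp [hjk, this]

lemma total_inner {A : StarSubalgebra ℂ (H →L[ℂ] H)} {N : ℕ} {q : Fin N → H →L[ℂ] H}
    (h : IsPartition A q) (x : H →L[ℂ] H) (v v' : H) :
    ⟪v', x v⟫ = ∑ j, ∑ k, ⟪q j v', x (q k v)⟫ := by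
  have hs : ∀ w : H, w = ∑ j, q j w := by
    intro w
    rw [← _root_.sum_apply, h.sum]
    rfl
  conv_lhs => rw [hs v', hs v]
  rw [sum_inner]
  refine sum_congr rfl (fun j _ => ?_)
  rw [map_sum, inner_sum]

theorem pav_proof (A : StarSubalgebra ℂ (H →L[ℂ] H)) (hB : BLK A) (hN : BND A)
    (hC : COL.{0}) : PAV A := by
  intro x hx F η hη r hr
  classical
  set n := F.card with hn
  set e := F.equivFin with he
  set vec : Fin n → H := fun i => ((e.symm i : {y // y ∈ F}) : H) with hvec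
  set S : ℝ := ∑ t : Fin n × Fin n, 2 * ‖x‖ ^ 2 * ‖vec t.1‖ ^ 2 with hS
  have hS0 : 0 ≤ S := sum_nonneg (fun t _ => by positivity)
  set η' : ℝ := η / (2 * (1 + S)) with hη'
  have hη'0 : 0 < η' := by rw [hη']; positivity
  have hη'1 : η' ≤ η / 2 := by
    rw [hη']
    apply div_le_div_of_nonneg_left hη.le (by norm_num)
    linarith
  have hη'2 : η' ^ 2 * S ≤ (η / 2) ^ 2 := by
    have h1 : η' * (1 + S) = η / 2 := by
      rw [hη']
      field_simp
    have h2 : η' ^ 2 * S ≤ (η' * (1 + S)) ^ 2 := by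
      have : (η' * (1 + S)) ^ 2 = η' ^ 2 * S + η' ^ 2 * (1 + S + S ^ 2) := by ring
      rw [this]
      have : 0 ≤ η' ^ 2 * (1 + S + S ^ 2) := by positivity
      linarith
    rw [h1] at h2
    exact h2
  obtain ⟨N, q, f, hq, hfA, hf, hfx, hsmall, hdiag⟩ := hB x hx F η' hη'0
  obtain ⟨c, hc⟩ := hC (Fin n × Fin n) N r
    (fun t j k => ⟪q j (vec t.2), x (q k (vec t.1))⟫) hr
  refine ⟨coarse q c, f, coarse_partition hq c, hfA, hf, hfx, ?_⟩
  intro v hv v' hv'
  have hvi : vec (e ⟨v, hv⟩) = v := by simp [hvec]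
  have hvi' : vec (e ⟨v', hv'⟩) = v' := by simp [hvec]
  have hmem : ∀ i, vec i ∈ F := fun i => (e.symm i).2
  -- the sum over pairs
  have hsum : ∑ t : Fin n × Fin n, ∑ j, ∑ k, ‖⟪q j (vec t.2), x (q k (vec t.1))⟫‖ ^ 2 ≤
      ∑ t : Fin n × Fin n, η' ^ 2 * ‖x‖ ^ 2 * ‖vec t.1‖ ^ 2 := by
    refine sum_le_sum (fun t _ => ?_)
    exact (hN N q x (vec t.1) (vec t.2) η' hq hη'0.le (hsmall _ (hmem _))).1
  have hX : ‖∑ j, ∑ k, (if j = k then 0 else ((if c j = c k then 1 else 0) - 1 / (r : ℂ))) *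
        ⟪q j v', x (q k v)⟫‖ ^ 2 ≤ (η / 2) ^ 2 := by
    have h1 := single_le_sum (f := fun t : Fin n × Fin n =>
      ‖∑ j, ∑ k, (if j = k then 0 else ((if c j = c k then 1 else 0) - 1 / (r : ℂ))) *
        ⟪q j (vec t.2), x (q k (vec t.1))⟫‖ ^ 2) (fun t _ => by positivity)
      (mem_univ (e ⟨v, hv⟩, e ⟨v', hv'⟩))
    simp only [hvi, hvi'] at h1
    calc _ ≤ _ := h1
      _ ≤ _ := hc
      _ ≤ 2 * ∑ t : Fin n × Fin n, η' ^ 2 * ‖x‖ ^ 2 * ‖vec t.1‖ ^ 2 := by
        linarith
      _ = η' ^ 2 * S := by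
        rw [hS, mul_sum, mul_sum]
        exact sum_congr rfl (fun t _ => by ring)
      _ ≤ (η / 2) ^ 2 := hη'2
  have hX' : ‖∑ j, ∑ k, (if j = k then 0 else ((if c j = c k then 1 else 0) - 1 / (r : ℂ))) *
        ⟪q j v', x (q k v)⟫‖ ≤ η / 2 :=
    le_of_sq_le_sq hX (by positivity)
  have hid : ⟪v', pinch (coarse q c) x v⟫ - (1 / (r : ℂ)) * ⟪v', x v⟫ -
      (1 - 1 / (r : ℂ)) * ⟪v', f v⟫ =
      (∑ j, ∑ k, (if j = k then 0 else ((if c j = c k then 1 else 0) - 1 / (r : ℂ))) *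
        ⟪q j v', x (q k v)⟫) +
      (1 - 1 / (r : ℂ)) * (∑ j, ⟪q j v', x (q j v)⟫ - ⟪v', f v⟫) := by
    rw [pinch_inner hq, total_inner hq]
    have hj : ∀ j, ∑ k, (if j = k then 0 else ((if c j = c k then 1 else 0) - 1 / (r : ℂ))) *
        ⟪q j v', x (q k v)⟫ =
        ∑ k, (if c j = c k then (1 : ℂ) else 0) * ⟪q j v', x (q k v)⟫ -
        (1 / (r : ℂ)) * ∑ k, ⟪q j v', x (q k v)⟫ -
        (1 - 1 / (r : ℂ)) * ⟪q j v', x (q j v)⟫ := by
      intro j
      have h3 : (1 - 1 / (r : ℂ)) * ⟪q j v', x (q j v)⟫ =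
          ∑ k, if j = k then (1 - 1 / (r : ℂ)) * ⟪q j v', x (q k v)⟫ else 0 := by
        rw [sum_ite_eq]
        simp
      rw [h3, mul_sum, ← sum_sub_distrib, ← sum_sub_distrib]
      refine sum_congr rfl (fun k _ => ?_)
      by_cases hjk : j = k
      · subst hjk
        simp
        ring
      · simp only [if_neg hjk]
        ring
    simp only [hj]
    rw [sum_sub_distrib, sum_sub_distrib, ← mul_sum, ← mul_sum]
    ring
  rw [hid]
  have hr1 : ‖(1 - 1 / (r : ℂ))‖ ≤ 1 := by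
    have hr0 : (0 : ℝ) < r := by exact_mod_cast hr
    have h4 : (1 - 1 / (r : ℂ)) = (((1 - 1 / (r : ℝ)) : ℝ) : ℂ) := by push_cast; ring
    rw [h4, Complex.norm_real, Real.norm_eq_abs, abs_le]
    have h5 : 1 / (r : ℝ) ≤ 1 := by
      rw [div_le_one hr0]
      exact_mod_cast hr
    have h6 : 0 < 1 / (r : ℝ) := by positivity
    constructor <;> linarith
  calc _ ≤ _ := norm_add_le _ _
    _ ≤ η / 2 + 1 * η' := by
      refine add_le_add hX' ?_
      rw [norm_mul]
      exact mul_le_mul hr1 (hdiag v hv v' hv') (norm_nonneg _) zero_le_one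
    _ ≤ η := by linarith

end Vale.Agent.P078.PAVm
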