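import Vale.Agent.P078.Mods

/-!
P078, module PROJ: projections onto closed invariant subspaces belong to `A`.
-/

namespace Vale.Agent.P078.Proj

open scoped ComplexInnerProductSpace

variable {H : Type*} [NormedAddCommGroup H] [InnerProductSpace ℂ H] [CompleteSpace H]

theorem proj_proof (A : StarSubalgebra ℂ (H →L[ℂ] H)) (hA : Ms A) : PROJ A := by
  intro K _ hK
  have hsa : star K.starProjection = K.starProjection := (isSelfAdjoint_starProjection K).star_eq
  have h1 : ∀ a ∈ A, K.starProjection * a * K.starProjection = a * K.starProjection := by
    intro a ha
    ext v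
    show K.starProjection (a (K.starProjection v)) = a (K.starProjection v)
    exact Submodule.starProjection_eq_self_iff.mpr (hK a ha _ (K.starProjection_apply_mem v))
  rw [hA]
  intro a ha
  have h2 := congrArg star (h1 (star a) (star_mem ha))
  rw [star_mul, star_mul, star_mul, star_star, hsa] at h2
  rw [← h1 a ha, mul_assoc, h2]

end Vale.Agent.P078.Proj
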