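import Vale.Agent.P078.Mods
import Vale.Agent.P078.Spec

/-!
P078, module QQ: fine partitions on which all vectors of a finite set are nearly multiples of one
vector.
-/

namespace Vale.Agent.P078.QQm

open scoped ComplexInnerProductSpace

variable {H : Type*} [NormedAddCommGroup H] [InnerProductSpace ℂ H] [CompleteSpace H]

/-- refining does not change simple elements -/
theorem refine_sum {A : StarSubalgebra ℂ (H →L[ℂ] H)} {n m : ℕ} {q : Fin n → H →L[ℂ] H}
    {s : Fin m → H →L[ℂ] H} {σ : Fin m → Fin n} (hq : IsPartition A q) (hs : IsPartition A s)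
    (h : Finer q s σ) (β : Fin n → ℂ) : ∑ i, β (σ i) • s i = ∑ j, β j • q j := by
  classical
  have h1 : ∀ i j, s i * q j = if σ i = j then s i else 0 := by
    intro i j
    by_cases hij : σ i = j
    · rw [if_pos hij, ← hij]
      exact h i
    · rw [if_neg hij, ← h i, mul_assoc, hq.orth _ _ hij, mul_zero]
  calc ∑ i, β (σ i) • s i = ∑ i, ∑ j, β j • (s i * q j) := by
        refine Finset.sum_congr rfl fun i _ => ?_
        simp_rw [h1]
        rw [Finset.sum_eq_single (σ i)]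
        · rw [if_pos rfl]
        · intro j _ hj
          rw [if_neg (Ne.symm hj), smul_zero]
        · intro hi
          exact absurd (Finset.mem_univ _) hi
    _ = ∑ j, β j • q j := by
        rw [Finset.sum_comm]
        refine Finset.sum_congr rfl fun j _ => ?_
        rw [← Finset.smul_sum, ← Finset.sum_mul, hs.sum, one_mul]

theorem refine_norm {A : StarSubalgebra ℂ (H →L[ℂ] H)} {n m : ℕ} {q : Fin n → H →L[ℂ] H}
    {s : Fin m → H →L[ℂ] H} {σ : Fin m → Fin n} (hs : IsPartition A s)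
    (h : Finer q s σ) (v : H) (i : Fin m) : ‖s i v‖ ≤ ‖q (σ i) v‖ := by
  have h1 : s i v = s i (q (σ i) v) := by
    conv_lhs => rw [← h i]
    rfl
  rw [h1]
  have hn : ‖s i‖ ≤ 1 := (hs.proj i).norm_le
  calc ‖s i (q (σ i) v)‖ ≤ ‖s i‖ * ‖q (σ i) v‖ := (s i).le_opNorm _
    _ ≤ 1 * ‖q (σ i) v‖ := by gcongr
    _ = _ := one_mul _

theorem qq_aux (A : StarSubalgebra ℂ (H →L[ℂ] H)) (hS : SPEC A) (hF : FINE A) (hR : REF A)
    (ζ : H) (F : Finset H) (hc : ∀ v ∈ F, ∀ η : ℝ, 0 < η → ∃ b ∈ A, ‖v - b ζ‖ ≤ η)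
    {η : ℝ} (hη : 0 < η) : ∃ (N : ℕ) (q : Fin N → H →L[ℂ] H) (β : H → Fin N → ℂ),
      IsPartition A q ∧ (∀ v ∈ F, ‖v - ∑ j, β v j • q j ζ‖ ≤ η) ∧
        ∀ v ∈ F, ∀ j, ‖q j v‖ ≤ η := by
  classical
  induction F using Finset.induction_on with
  | empty =>
    refine ⟨1, fun _ => 1, fun _ _ => 0, ⟨fun _ => one_mem A, fun _ => .one _, ?_, by simp⟩,
      fun v hv => absurd hv (Finset.notMem_empty v), fun v hv => absurd hv (Finset.notMem_empty v)⟩
    intro i j hij
    exact absurd (Subsingleton.elim i j) hij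
  | insert w F hw ih =>
    obtain ⟨n1, q1, β1, hq1, ha1, hb1⟩ := ih (fun v hv => hc v (Finset.mem_insert_of_mem hv))
    obtain ⟨b, hb, hbn⟩ := hc w (Finset.mem_insert_self _ _) (η / 2) (half_pos hη)
    have hpos : 0 < η / 2 / (‖ζ‖ + 1) := by positivity
    obtain ⟨n2, q2, β2, hq2, ha2⟩ := hS b hb _ hpos
    obtain ⟨n3, q3, hq3, hb3⟩ := hF w η hη
    obtain ⟨n4, q4, σ, τ, hq4, hσ, hτ⟩ := hR n1 n2 q1 q2 hq1 hq2
    obtain ⟨n5, q5, σ', τ', hq5, hσ', hτ'⟩ := hR n4 n3 q4 q3 hq4 hq3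
    have happ : ∀ (β : Fin n5 → ℂ), ∑ j, β j • q5 j ζ = (∑ j, β j • q5 j) ζ := by
      intro β
      rw [sum_apply]
      rfl
    refine ⟨n5, q5, fun v j => if v = w then β2 (τ (σ' j)) else β1 v (σ (σ' j)), hq5, ?_, ?_⟩
    · intro v hv
      rw [happ]
      by_cases hvw : v = w
      · subst hvw
        simp only [if_true]
        rw [refine_sum hq4 hq5 hσ' (fun j => β2 (τ j)), refine_sum hq2 hq4 hτ β2]
        have e : v - (∑ j, β2 j • q2 j) ζ = (v - b ζ) + (b - ∑ j, β2 j • q2 j) ζ := by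
          rw [sub_apply]
          abel
        rw [e]
        have h3 : ‖(b - ∑ j, β2 j • q2 j) ζ‖ ≤ η / 2 / (‖ζ‖ + 1) * ‖ζ‖ :=
          (ContinuousLinearMap.le_opNorm _ _).trans (by gcongr)
        have h4 : η / 2 / (‖ζ‖ + 1) * ‖ζ‖ ≤ η / 2 := by
          rw [div_mul_eq_mul_div, div_le_iff₀ (by positivity)]
          nlinarith
        calc ‖(v - b ζ) + (b - ∑ j, β2 j • q2 j) ζ‖ ≤ _ := norm_add_le _ _
          _ ≤ η / 2 + η / 2 := add_le_add hbn (h3.trans h4)
          _ = η := by ring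
      · simp only [if_neg hvw]
        have hvF : v ∈ F := (Finset.mem_insert.mp hv).resolve_left hvw
        rw [refine_sum hq4 hq5 hσ' (fun j => β1 v (σ j)), refine_sum hq1 hq4 hσ (β1 v)]
        have e : (∑ j, β1 v j • q1 j) ζ = ∑ j, β1 v j • q1 j ζ := by
          rw [sum_apply]
          rfl
        rw [e]
        exact ha1 v hvF
    · intro v hv j
      rcases Finset.mem_insert.mp hv with rfl | hvF
      · exact (refine_norm hq5 hτ' v j).trans (hb3 _)
      · exact ((refine_norm hq5 hσ' v j).trans (refine_norm hq4 hσ v _)).trans (hb1 v hvF _)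

theorem qq_proof (A : StarSubalgebra ℂ (H →L[ℂ] H)) (hS : SPEC A) (hF : FINE A) (hR : REF A)
    (hC : CYC A) : QQ A := by
  intro F η hη
  obtain ⟨ζ, hζ⟩ := hC F
  obtain ⟨N, q, β, h1, h2, h3⟩ := qq_aux A hS hF hR ζ F hζ hη
  exact ⟨N, q, ζ, β, h1, h2, h3⟩

end Vale.Agent.P078.QQm
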