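import Vale.Agent.P078.Mods
import Vale.Agent.P078.Spec

/-!
P078, module REF: common refinements.
-/

namespace Vale.Agent.P078.Ref

open scoped ComplexInnerProductSpace

variable {H : Type*} [NormedAddCommGroup H] [InnerProductSpace ℂ H] [CompleteSpace H]

theorem ref_proof (A : StarSubalgebra ℂ (H →L[ℂ] H)) (hA : Ms A) : REF A := by
  intro n m q q' hq hq'
  refine ⟨n * m, _, fun i => (finProdFinEquiv.symm i).1, fun i => (finProdFinEquiv.symm i).2,
    Spec.prod_partition hA hq hq', ?_, ?_⟩
  · intro i
    have hc := Spec.comm_of hA (hq.mem (finProdFinEquiv.symm i).1)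
      (hq'.mem (finProdFinEquiv.symm i).2)
    show q (finProdFinEquiv.symm i).1 * q' (finProdFinEquiv.symm i).2 *
      q (finProdFinEquiv.symm i).1 = q (finProdFinEquiv.symm i).1 * q' (finProdFinEquiv.symm i).2
    rw [hc, mul_assoc, (hq.proj _).isIdempotentElem.eq]
  · intro i
    show q (finProdFinEquiv.symm i).1 * q' (finProdFinEquiv.symm i).2 *
      q' (finProdFinEquiv.symm i).2 = q (finProdFinEquiv.symm i).1 * q' (finProdFinEquiv.symm i).2
    rw [mul_assoc, (hq'.proj _).isIdempotentElem.eq]

end Vale.Agent.P078.Ref
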