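import Vale.Agent.P078.Mom

/-! P078, module SGN: good signs. -/

namespace Vale.Agent.P078.SGNm

open Finset Mom

universe u

/-- sign of a Boolean -/
def sg (b : Bool) : ℝ := if b then 1 else -1

theorem sg_sum : ∑ b, sg b = 0 := by simp [sg]

theorem sg_sq (b : Bool) : sg b * sg b = 1 := by cases b <;> simp [sg]

theorem sg_pm (b : Bool) : sg b = 1 ∨ sg b = -1 := by cases b <;> simp [sg]

theorem lin_moment {N : ℕ} (z : Fin N → ℂ) :
    ∑ c : Fin N → Bool, ‖∑ j, (sg (c j) : ℂ) * z j‖ ^ 2 =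
      (Fintype.card (Fin N → Bool) : ℝ) * ∑ j, ‖z j‖ ^ 2 := by
  rw [expand_sq (T := Fin N → Bool) (fun j c => sg (c j)) z, Finset.mul_sum]
  refine Finset.sum_congr rfl (fun j _ => ?_)
  rw [Finset.sum_eq_single j]
  · have h1 : ∑ c : Fin N → Bool, sg (c j) * sg (c j) = (Fintype.card (Fin N → Bool) : ℝ) := by
      rw [Finset.sum_congr rfl (fun c _ => sg_sq (c j))]
      simp
    rw [h1, Complex.mul_conj, Complex.normSq_eq_norm_sq, Complex.ofReal_re]
  · intro k _ hk
    have h1 : ∑ c : Fin N → Bool, sg (c j) * sg (c k) = 0 := by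
      rw [split_sum j]
      refine Finset.sum_eq_zero (fun g _ => ?_)
      have e1 : ∀ b, sg ((Equiv.funSplitAt j Bool).symm (b, g) j) *
          sg ((Equiv.funSplitAt j Bool).symm (b, g) k) = sg b * sg (g ⟨k, hk⟩) := by
        intro b
        rw [fs_self, fs_ne j b g k hk]
      rw [Finset.sum_congr rfl (fun b _ => e1 b), ← Finset.sum_mul, sg_sum, zero_mul]
    rw [h1, zero_mul]
  · intro h
    exact absurd (Finset.mem_univ j) h

theorem sgn_proof : SGN.{u} := by
  intro κ ρ _ _ N z m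
  set α : Bool → Bool → ℝ := fun b b' => sg b * sg b' with hα
  have hs : ∀ b b', α b b' = α b' b := fun b b' => mul_comm _ _
  have h0 : ∀ b', ∑ b, α b b' = 0 := by
    intro b'
    simp only [hα]
    rw [← Finset.sum_mul, sg_sum, zero_mul]
  have h1 : ∀ b b', |α b b'| ≤ 1 := by
    intro b b'
    cases b <;> cases b' <;> simp [hα, sg]
  set f : (Fin N → Bool) → ℝ := fun c => ∑ t, ‖∑ j, (sg (c j) : ℂ) * z t j‖ ^ 2 +
    ∑ t, ‖∑ p : Fin N × Fin N, (al α p c : ℂ) * m t p.1 p.2‖ ^ 2 with hf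
  have h2 : ∑ c, f c ≤ ∑ _c : Fin N → Bool,
      (∑ t, ∑ j, ‖z t j‖ ^ 2 + 2 * ∑ t, ∑ j, ∑ k, ‖m t j k‖ ^ 2) := by
    rw [hf, Finset.sum_add_distrib, Finset.sum_const, Finset.card_univ, nsmul_eq_mul, mul_add]
    refine add_le_add ?_ ?_
    · rw [Finset.sum_comm, Finset.mul_sum]
      exact Finset.sum_le_sum (fun t _ => (lin_moment (z t)).le)
    · rw [Finset.sum_comm, Finset.mul_sum, Finset.mul_sum]
      refine Finset.sum_le_sum (fun t _ => ?_)
      refine (quad_moment α hs h0 h1 (fun p => m t p.1 p.2)).trans (le_of_eq ?_)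
      rw [Fintype.sum_prod_type]
  obtain ⟨c, -, hc⟩ := Finset.exists_le_of_sum_le
    (Finset.univ_nonempty (α := Fin N → Bool)) h2
  refine ⟨fun j => sg (c j), fun j => sg_pm _, le_trans (le_of_eq ?_) hc⟩
  rw [hf]
  refine congrArg₂ (· + ·) rfl ?_
  refine Finset.sum_congr rfl (fun t _ => ?_)
  rw [Fintype.sum_prod_type]
  congr 2
  refine Finset.sum_congr rfl (fun j _ => Finset.sum_congr rfl (fun k _ => ?_))
  congr 1
  unfold al
  simp only [hα]
  split_ifs <;> simp

end Vale.Agent.P078.SGNm
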